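import Mathlib

/-!
Areas of planar sets in Euclidean spaces.
-/

set_option autoImplicit false

namespace Crest.Agent.R211

open MeasureTheory Set
open scoped ENNReal

abbrev E2 : Type := EuclideanSpace ℝ (Fin 2)
abbrev E3 : Type := EuclideanSpace ℝ (Fin 3)

section general
variable {V : Type*} [NormedAddCommGroup V] [InnerProductSpace ℝ V]

/-- Area of the parallelogram spanned by two vectors. -/
noncomputable def gram (a b : V) : ℝ := √(‖a‖ ^ 2 * ‖b‖ ^ 2 - inner ℝ a b ^ 2)

lemma gram_nonneg (a b : V) : 0 ≤ gram a b := Real.sqrt_nonneg _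

/-- The image of a subset of the coordinate plane under an affine parametrisation. -/
def plane (P a b : V) (X : Set (ℝ × ℝ)) : Set V := (fun z : ℝ × ℝ => P + z.1 • a + z.2 • b) '' X

lemma mem_plane {P a b x : V} {X : Set (ℝ × ℝ)} :
    x ∈ plane P a b X ↔ ∃ s t, (s, t) ∈ X ∧ x = P + s • a + t • b := by
  constructor
  · rintro ⟨z, hz, rfl⟩; exact ⟨z.1, z.2, hz, rfl⟩
  · rintro ⟨s, t, h, rfl⟩; exact ⟨(s, t), h, rfl⟩

lemma plane_mono (P a b : V) {X Y : Set (ℝ × ℝ)} (h : X ⊆ Y) : plane P a b X ⊆ plane P a b Y :=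
  image_mono h

lemma isCompact_plane (P a b : V) {X : Set (ℝ × ℝ)} (h : IsCompact X) :
    IsCompact (plane P a b X) :=
  h.image (by fun_prop)

lemma volume_coord (X : Set (ℝ × ℝ)) : volume {z : E2 | (z 0, z 1) ∈ X} = volume X := by
  have h1 := (EuclideanSpace.volume_preserving_symm_measurableEquiv_toLp (Fin 2))
  have h2 := (volume_preserving_finTwoArrow ℝ)
  have h3 := (h2.comp h1)
  exact MeasurePreserving.measure_preimage_equiv
    (f := (MeasurableEquiv.toLp 2 (Fin 2 → ℝ)).symm.trans MeasurableEquiv.finTwoArrow) h3 X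

theorem area_plane [MeasurableSpace V] [BorelSpace V] (P a b : V) (X : Set (ℝ × ℝ)) :
    μHE[2] (plane P a b X) = ENNReal.ofReal (gram a b) * volume X := by
  let f : E2 →ₗ[ℝ] V :=
    { toFun := fun z => z 0 • a + z 1 • b
      map_add' := fun x y => by simp only [PiLp.add_apply, add_smul]; abel
      map_smul' := fun c x => by simp only [PiLp.smul_apply, smul_eq_mul, RingHom.id_apply,
        smul_add, mul_smul] }
  have e1 : plane P a b X = (fun x => P + x) '' (f '' {z : E2 | (z 0, z 1) ∈ X}) := by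
    ext x
    simp only [mem_plane, mem_image, mem_ofPred_eq]
    constructor
    · rintro ⟨s, t, h, rfl⟩
      exact ⟨_, ⟨!₂[s, t], by simpa using h, rfl⟩, by simp [f, add_assoc]⟩
    · rintro ⟨_, ⟨z, hz, rfl⟩, rfl⟩
      exact ⟨z 0, z 1, hz, by simp [f, add_assoc]⟩
  have e2 : f.normDet = gram a b := by
    have := f.normDet_sq_eq_det_gram (EuclideanSpace.basisFun (Fin 2) ℝ)
    rw [Matrix.det_fin_two] at this
    simp only [Matrix.gram_apply, f, LinearMap.coe_mk, AddHom.coe_mk,
      EuclideanSpace.basisFun_apply] at this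
    simp at this
    rw [gram, ← Real.sqrt_sq f.normDet_nonneg]
    congr 1
    rw [this, real_inner_comm a b]
    ring
  have e3 := f.euclideanHausdorffMeasure_image_eq_normDet_mul_volume {z : E2 | (z 0, z 1) ∈ X}
  rw [finrank_euclideanSpace_fin] at e3
  rw [e1, (isometry_add_left P).euclideanHausdorffMeasure_image, e3, e2, volume_coord]

lemma area_plane_toReal [MeasurableSpace V] [BorelSpace V] (P a b : V) (X : Set (ℝ × ℝ)) :
    (μHE[2] (plane P a b X)).toReal = gram a b * (volume X).toReal := by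
  rw [area_plane, ENNReal.toReal_mul, ENNReal.toReal_ofReal (gram_nonneg _ _)]

/-- The standard triangle. -/
def stdTri : Set (ℝ × ℝ) := {z | 0 ≤ z.1 ∧ 0 ≤ z.2 ∧ z.1 + z.2 ≤ 1}

lemma volume_region {a b : ℝ} {f g : ℝ → ℝ} (hf : Continuous f) (hg : Continuous g)
    (hab : a ≤ b) (hfg : ∀ x ∈ Icc a b, f x ≤ g x) :
    volume {z : ℝ × ℝ | z.1 ∈ Icc a b ∧ z.2 ∈ Icc (f z.1) (g z.1)}
      = ENNReal.ofReal (∫ x in a..b, (g x - f x)) := by
  rw [Measure.volume_eq_prod, Measure.prod_apply
    (measurableSet_region_between_cc hf.measurable hg.measurable measurableSet_Icc)]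
  have : ∀ x : ℝ, volume (Prod.mk x ⁻¹' {z : ℝ × ℝ | z.1 ∈ Icc a b ∧ z.2 ∈ Icc (f z.1) (g z.1)})
      = (Icc a b).indicator (fun x => ENNReal.ofReal (g x - f x)) x := by
    intro x
    by_cases hx : x ∈ Icc a b
    · rw [indicator_of_mem hx, ← Real.volume_Icc]
      congr 1
      ext y
      simp only [mem_preimage, mem_ofPred_eq, hx, true_and]
    · rw [indicator_of_notMem hx]
      convert measure_empty (μ := (volume : Measure ℝ))
      ext y
      simp only [mem_preimage, mem_ofPred_eq, hx, false_and, mem_empty_iff_false]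
  simp only [this]
  rw [lintegral_indicator measurableSet_Icc, intervalIntegral.integral_of_le hab,
    ← integral_Icc_eq_integral_Ioc, ofReal_integral_eq_lintegral_ofReal
      ((hg.fun_sub hf).continuousOn.integrableOn_Icc)]
  filter_upwards [ae_restrict_mem measurableSet_Icc] with x hx using sub_nonneg.mpr (hfg x hx)

lemma volume_stdTri : volume stdTri = ENNReal.ofReal (1 / 2) := by
  have e : stdTri = {z : ℝ × ℝ | z.1 ∈ Icc 0 1 ∧ z.2 ∈ Icc ((fun _ => 0) z.1) ((fun x => 1 - x) z.1)} := by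
    ext z
    simp only [stdTri, mem_ofPred_eq, mem_Icc]
    constructor
    · rintro ⟨h1, h2, h3⟩; exact ⟨⟨h1, by linarith⟩, h2, by linarith⟩
    · rintro ⟨⟨h1, -⟩, h2, h3⟩; exact ⟨h1, h2, by linarith⟩
  rw [e, volume_region continuous_const (by fun_prop) zero_le_one (fun x hx => by linarith [hx.2])]
  congr 1
  simp only [sub_zero]
  rw [intervalIntegral.integral_sub (by simp) (by simp)]
  simp
  norm_num

/-- The wedge `|y| ≤ x ≤ R`. -/
def wedge (R : ℝ) : Set (ℝ × ℝ) := {z | |z.2| ≤ z.1 ∧ z.1 ≤ R}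

lemma volume_wedge {R : ℝ} (hR : 0 ≤ R) : volume (wedge R) = ENNReal.ofReal (R ^ 2) := by
  have e : wedge R = {z : ℝ × ℝ | z.1 ∈ Icc 0 R ∧ z.2 ∈ Icc ((fun x => -x) z.1) ((fun x => x) z.1)} := by
    ext z
    simp only [wedge, mem_ofPred_eq, mem_Icc, abs_le]
    constructor
    · rintro ⟨⟨h1, h2⟩, h3⟩; exact ⟨⟨by linarith, h3⟩, h1, h2⟩
    · rintro ⟨⟨-, h1⟩, h2, h3⟩; exact ⟨⟨h2, h3⟩, h1⟩
  rw [e, volume_region (f := fun x => -x) (g := fun x => x) (by fun_prop) (by fun_prop) hR
    (fun x hx => by linarith [hx.1])]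
  congr 1
  simp only [sub_neg_eq_add]
  rw [intervalIntegral.integral_add (by simp) (by simp)]
  simp

lemma isCompact_wedge (R : ℝ) : IsCompact (wedge R) := by
  refine (isCompact_Icc (a := ((-|R|, -|R|) : ℝ × ℝ)) (b := (|R|, |R|))).of_isClosed_subset ?_ ?_
  · exact (isClosed_le continuous_snd.abs continuous_fst).inter
      (isClosed_le continuous_fst continuous_const)
  · rintro ⟨x, y⟩ ⟨h1, h2⟩
    have := le_abs_self R
    have := abs_nonneg y
    have := abs_nonneg R
    have h3 := abs_le.mp h1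
    simp only [mem_Icc, Prod.mk_le_mk] at *
    refine ⟨⟨?_, ?_⟩, ?_, ?_⟩ <;> linarith [h3.1, h3.2]

lemma convex_stdTri : Convex ℝ stdTri := by
  rintro ⟨x1, y1⟩ ⟨h1, h2, h3⟩ ⟨x2, y2⟩ ⟨h4, h5, h6⟩ a b ha hb hab
  simp only [stdTri, mem_ofPred_eq, Prod.smul_mk, Prod.mk_add_mk, smul_eq_mul] at *
  refine ⟨by positivity, by positivity, by nlinarith⟩

lemma isCompact_stdTri : IsCompact stdTri := by
  refine (isCompact_Icc (a := ((0, 0) : ℝ × ℝ)) (b := (1, 1))).of_isClosed_subset ?_ ?_
  · exact (isClosed_le continuous_const continuous_fst).inter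
      ((isClosed_le continuous_const continuous_snd).inter
        (isClosed_le (continuous_fst.add continuous_snd) continuous_const))
  · rintro ⟨x, y⟩ ⟨h1, h2, h3⟩
    simp only [mem_Icc, Prod.mk_le_mk] at *
    refine ⟨⟨?_, ?_⟩, ?_, ?_⟩ <;> linarith

lemma convexHull_triangle (p q r : V) :
    convexHull ℝ {p, q, r} = plane p (q - p) (r - p) stdTri := by
  apply Subset.antisymm
  · apply convexHull_min
    · rintro x (rfl | rfl | rfl)
      · exact mem_plane.mpr ⟨0, 0, by simp [stdTri], by simp⟩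
      · exact mem_plane.mpr ⟨1, 0, by simp [stdTri], by simp⟩
      · exact mem_plane.mpr ⟨0, 1, by simp [stdTri], by simp⟩
    · rintro _ ⟨z, hz, rfl⟩ _ ⟨z', hz', rfl⟩ a b ha hb hab
      refine ⟨a • z + b • z', convex_stdTri hz hz' ha hb hab, ?_⟩
      have : b = 1 - a := by linarith
      subst this
      simp only [Prod.fst_add, Prod.smul_fst, smul_eq_mul, Prod.snd_add, Prod.smul_snd]
      module
  · rintro _ ⟨⟨s, t⟩, ⟨h1, h2, h3⟩, rfl⟩
    have hc := convex_convexHull ℝ ({p, q, r} : Set V)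
    have hp : p ∈ convexHull ℝ ({p, q, r} : Set V) := subset_convexHull _ _ (by simp)
    have hq : q ∈ convexHull ℝ ({p, q, r} : Set V) := subset_convexHull _ _ (by simp)
    have hr : r ∈ convexHull ℝ ({p, q, r} : Set V) := subset_convexHull _ _ (by simp)
    have := hc.sum_mem (t := Finset.univ) (w := ![1 - s - t, s, t]) (z := ![p, q, r])
      (fun i _ => by fin_cases i <;> simp at * <;> linarith) (by simp only [Fin.sum_univ_three, Matrix.cons_val_zero, Matrix.cons_val_one, Matrix.cons_val]; ring)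
      (fun i _ => by fin_cases i <;> simpa)
    convert this using 1
    simp only [Fin.sum_univ_three, Matrix.cons_val_zero, Matrix.cons_val_one, Matrix.cons_val]
    module

lemma area_triangle [MeasurableSpace V] [BorelSpace V] (p q r : V) :
    μHE[2] (convexHull ℝ ({p, q, r} : Set V)) = ENNReal.ofReal (gram (q - p) (r - p) / 2) := by
  rw [convexHull_triangle, area_plane, volume_stdTri, ← ENNReal.ofReal_mul (gram_nonneg _ _)]
  congr 1; ring

lemma area_triangle_toReal [MeasurableSpace V] [BorelSpace V] (p q r : V) :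
    (μHE[2] (convexHull ℝ ({p, q, r} : Set V))).toReal = gram (q - p) (r - p) / 2 := by
  rw [area_triangle, ENNReal.toReal_ofReal (by have := gram_nonneg (q - p) (r - p); positivity)]

/-- The unit square. -/
def unitSq : Set (ℝ × ℝ) := Icc 0 1 ×ˢ Icc 0 1

lemma volume_unitSq : volume unitSq = 1 := by
  rw [unitSq, Measure.volume_eq_prod, Measure.prod_prod]; simp

lemma isCompact_unitSq : IsCompact unitSq := isCompact_Icc.prod isCompact_Icc

lemma parallelogram_eq (c a b : V) :
    {x : V | ∃ s ∈ Icc (0 : ℝ) 1, ∃ t ∈ Icc (0 : ℝ) 1, x = c + s • a + t • b}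
      = plane c a b unitSq := by
  ext x
  simp only [mem_ofPred_eq, mem_plane, unitSq, mem_prod]
  constructor
  · rintro ⟨s, hs, t, ht, rfl⟩; exact ⟨s, t, ⟨hs, ht⟩, rfl⟩
  · rintro ⟨s, t, ⟨hs, ht⟩, rfl⟩; exact ⟨s, hs, t, ht, rfl⟩

lemma gram_smul (s t : ℝ) (a b : V) : gram (s • a) (t • b) = |s * t| * gram a b := by
  rw [gram, gram, ← Real.sqrt_sq_eq_abs, ← Real.sqrt_mul (sq_nonneg _)]
  congr 1
  simp only [norm_smul, inner_smul_left, inner_smul_right, mul_pow, Real.norm_eq_abs, sq_abs,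
    conj_trivial]
  ring

lemma gram_lin (α β γ δ : ℝ) (a b : V) :
    gram (α • a + β • b) (γ • a + δ • b) = |α * δ - β * γ| * gram a b := by
  rw [gram, gram, ← Real.sqrt_sq_eq_abs, ← Real.sqrt_mul (sq_nonneg _)]
  congr 1
  simp only [← real_inner_self_eq_norm_sq, inner_add_left, inner_add_right, inner_smul_left,
    inner_smul_right, conj_trivial, real_inner_comm a b]
  ring

end general

/-- determinant of two plane vectors -/
def det2 (a b : E2) : ℝ := a 0 * b 1 - a 1 * b 0

lemma gram_eq_det2 (a b : E2) : gram a b = |det2 a b| := by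
  rw [gram, ← Real.sqrt_sq_eq_abs]
  congr 1
  simp only [EuclideanSpace.real_norm_sq_eq, Fin.sum_univ_two, PiLp.inner_apply, det2,
    RCLike.inner_apply, conj_trivial]
  ring

lemma volume_plane2 (P a b : E2) (X : Set (ℝ × ℝ)) :
    volume (plane P a b X) = ENNReal.ofReal |det2 a b| * volume X := by
  rw [← gram_eq_det2, ← area_plane, EuclideanSpace.euclideanHausdorffMeasure_eq_volume]

/-- determinant of three space vectors -/
def det3 (a b c : E3) : ℝ :=
  a 0 * (b 1 * c 2 - b 2 * c 1) - a 1 * (b 0 * c 2 - b 2 * c 0) + a 2 * (b 0 * c 1 - b 1 * c 0)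

/-- projection along `u` onto the plane orthogonal to `u` -/
noncomputable def proj (u y : E3) : E3 := y - (inner ℝ y u / ‖u‖ ^ 2) • u

lemma inner_proj {u : E3} (hu : u ≠ 0) (y : E3) : inner ℝ (proj u y) u = 0 := by
  have : ‖u‖ ≠ 0 := norm_ne_zero_iff.mpr hu
  rw [proj, inner_sub_left, inner_smul_left, real_inner_self_eq_norm_sq]
  simp only [conj_trivial]
  field_simp
  ring

lemma proj_add (u x y : E3) : proj u (x + y) = proj u x + proj u y := by
  simp only [proj, inner_add_left, add_div, add_smul]; abel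

lemma proj_sub (u x y : E3) : proj u (x - y) = proj u x - proj u y := by
  simp only [proj, inner_sub_left, sub_div, sub_smul]; abel

lemma proj_smul (u : E3) (c : ℝ) (y : E3) : proj u (c • y) = c • proj u y := by
  simp only [proj, inner_smul_left, conj_trivial, smul_sub, smul_smul, mul_div_assoc]

lemma proj_self {u : E3} (hu : u ≠ 0) : proj u u = 0 := by
  have : ‖u‖ ≠ 0 := norm_ne_zero_iff.mpr hu
  rw [proj, real_inner_self_eq_norm_sq, div_self (by positivity), one_smul, sub_self]

lemma proj_of_norm_one {u : E3} (hu : ‖u‖ = 1) (y : E3) : proj u y = y - inner ℝ y u • u := by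
  simp [proj, hu]

lemma proj_plane (u P a b : E3) (X : Set (ℝ × ℝ)) :
    proj u '' plane P a b X = plane (proj u P) (proj u a) (proj u b) X := by
  simp only [plane, image_image, proj_add, proj_smul]

lemma gram_proj {u : E3} (hu : u ≠ 0) (a b : E3) :
    gram (proj u a) (proj u b) = |det3 a b u| / ‖u‖ := by
  have h0 : 0 < ‖u‖ := norm_pos_iff.mpr hu
  have h5 : |det3 a b u| / ‖u‖ = √(det3 a b u ^ 2 / ‖u‖ ^ 2) := by
    rw [Real.sqrt_div (sq_nonneg _), Real.sqrt_sq_eq_abs, Real.sqrt_sq h0.le]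
  rw [gram, h5]
  congr 1
  have h1 : ∀ x y : E3, inner ℝ (proj u x) (proj u y)
      = inner ℝ x y - inner ℝ x u * inner ℝ y u / ‖u‖ ^ 2 := by
    intro x y
    conv_lhs => rw [proj.eq_def u y]
    rw [inner_sub_right, inner_smul_right, inner_proj hu, mul_zero, sub_zero, proj, inner_sub_left,
      inner_smul_left, real_inner_comm y u]
    simp only [conj_trivial]
    ring
  rw [← real_inner_self_eq_norm_sq (proj u a), ← real_inner_self_eq_norm_sq (proj u b), h1, h1, h1]
  have h2 : ‖u‖ ^ 2 ≠ 0 := by positivity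
  have h3 : ‖u‖ ^ 2 = u 0 ^ 2 + u 1 ^ 2 + u 2 ^ 2 := by
    simp only [EuclideanSpace.real_norm_sq_eq, Fin.sum_univ_three]
  rw [h3] at h2 ⊢
  simp only [PiLp.inner_apply, Fin.sum_univ_three, RCLike.inner_apply, conj_trivial, det3]
  field_simp
  ring

lemma area_lt_top {u : E3} (hu : u ≠ 0) {B : Set E3} (hB : Bornology.IsBounded B)
    (h : ∀ x ∈ B, inner ℝ x u = 0) : μHE[2] B < ⊤ := by
  let W : Submodule ℝ E3 := (Submodule.span ℝ {u})ᗮ
  have hW : Module.finrank ℝ W = 2 := by
    have h1 := Submodule.finrank_add_finrank_orthogonal (Submodule.span ℝ {u})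
    rw [finrank_span_singleton hu, finrank_euclideanSpace_fin] at h1
    change Module.finrank ℝ (Submodule.span ℝ {u})ᗮ = 2
    omega
  have e : B = W.subtypeₗᵢ '' (W.subtypeₗᵢ ⁻¹' B) := by
    rw [image_preimage_eq_of_subset]
    intro x hx
    exact ⟨⟨x, Submodule.mem_orthogonal_singleton_iff_inner_left.mpr (h x hx)⟩, rfl⟩
  rw [e, W.subtypeₗᵢ.isometry.euclideanHausdorffMeasure_image, ← hW,
    InnerProductSpace.euclideanHausdorffMeasure_eq_volume]
  exact (W.subtypeₗᵢ.isometry.antilipschitz.isBounded_preimage hB).measure_lt_top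

/-- A compact planar base can be thickened to a bounded relatively open base. -/
lemma exists_open_base {u : E3} (hu : u ≠ 0) {C : Set E3} (hC : IsCompact C)
    (h : ∀ x ∈ C, inner ℝ x u = 0) {η : ℝ} (hη : 0 < η) :
    ∃ B : Set E3, (Bornology.IsBounded B ∧ ∃ O : Set E3, IsOpen O ∧ B = O ∩ {x | inner ℝ x u = 0}) ∧
      C ⊆ B ∧ (μHE[2] B).toReal ≤ (μHE[2] C).toReal + η := by
  have hPm : MeasurableSet {x : E3 | inner ℝ x u = 0} :=
    (isClosed_eq (by fun_prop) continuous_const).measurableSet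
  let ν : Measure E3 := (μHE[2] : Measure E3).restrict {x : E3 | inner ℝ x u = 0}
  have hν : ∀ s, ν s = μHE[2] (s ∩ {x : E3 | inner ℝ x u = 0}) := fun s =>
    Measure.restrict_apply' hPm
  have : IsFiniteMeasureOnCompacts ν := ⟨fun K hK => by
    rw [hν]
    exact area_lt_top hu (hK.isBounded.subset inter_subset_left) fun x hx => hx.2⟩
  have hC' : ν C = μHE[2] C := by
    rw [hν, inter_eq_left.mpr (show C ⊆ {x : E3 | inner ℝ x u = 0} from h)]
  have ht := tendsto_measure_cthickening_of_isCompact (μ := ν) hC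
  have hfin : ν C ≠ ⊤ := hC.measure_lt_top.ne
  have ht' := (ENNReal.tendsto_toReal hfin).comp ht
  have hev : ∀ᶠ r in nhdsWithin (0 : ℝ) (Ioi 0),
      (ν (Metric.cthickening r C)).toReal < (ν C).toReal + η :=
    nhdsWithin_le_nhds (ht'.eventually (gt_mem_nhds (by linarith)))
  obtain ⟨r, hr1, hr2⟩ := (hev.and self_mem_nhdsWithin).exists
  refine ⟨Metric.thickening r C ∩ {x | inner ℝ x u = 0},
    ⟨hC.isBounded.thickening.subset inter_subset_left, _, Metric.isOpen_thickening, rfl⟩,
    fun x hx => ⟨Metric.self_subset_thickening hr2 _ hx, h x hx⟩, ?_⟩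
  rw [← hν, ← hC']
  refine le_trans (ENNReal.toReal_mono hC.cthickening.measure_lt_top.ne
    (measure_mono (Metric.thickening_subset_cthickening _ _))) hr1.le

end Crest.Agent.R211
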