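import Mathlib
import Crest.Agent.R211.Area

/-!
Covering a ruled set by sheared square cylinders: the local step.
-/

set_option autoImplicit false

namespace Crest.Agent.R211

open MeasureTheory Set
open scoped ENNReal

/-- Unit squares over the lattice spanned by `(1, γ)` and `(β, 1)` cover the plane when
`0 ≤ β γ < 1`. -/
lemma lattice_fix {β γ : ℝ} (h0 : 0 ≤ β * γ) (h1 : β * γ < 1) (x y : ℝ) :
    ∃ i j : ℤ, x - β * j - i ∈ Ico (0 : ℝ) 1 ∧ y - γ * i - j ∈ Ico (0 : ℝ) 1 := by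
  let f : ℤ → ℤ := fun j => ⌊y - γ * ⌊x - β * j⌋⌋
  have hmono : Monotone f := by
    intro j k hjk
    have hjk' : (j : ℝ) ≤ k := by exact_mod_cast hjk
    apply Int.floor_le_floor
    rcases mul_nonneg_iff.mp h0 with ⟨hb, hc⟩ | ⟨hb, hc⟩
    · have : (⌊x - β * k⌋ : ℝ) ≤ ⌊x - β * j⌋ := by
        exact_mod_cast Int.floor_le_floor (by nlinarith)
      nlinarith
    · have : (⌊x - β * j⌋ : ℝ) ≤ ⌊x - β * k⌋ := by
        exact_mod_cast Int.floor_le_floor (by nlinarith)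
      nlinarith
  obtain ⟨C, hC⟩ : ∃ C : ℝ, ∀ j : ℤ, β * γ * j - C ≤ f j ∧ (f j : ℝ) ≤ β * γ * j + C := by
    refine ⟨|y - γ * x| + |γ| + 1, fun j => ?_⟩
    have a1 := Int.floor_le (x - β * j)
    have a2 := Int.lt_floor_add_one (x - β * j)
    have a3 : (f j : ℝ) ≤ y - γ * ⌊x - β * j⌋ := Int.floor_le _
    have a4 : y - γ * ⌊x - β * j⌋ < f j + 1 := Int.lt_floor_add_one _
    have a5 : |γ * (x - β * j - ⌊x - β * j⌋)| ≤ |γ| := by
      rw [abs_mul]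
      exact mul_le_of_le_one_right (abs_nonneg _) (abs_le.mpr ⟨by linarith, by linarith⟩)
    have a6 := abs_le.mp a5
    have a7 := le_abs_self (y - γ * x)
    have a8 := neg_abs_le (y - γ * x)
    constructor <;> nlinarith [a6.1, a6.2]
  have h2 : 0 < 1 - β * γ := by linarith
  have hb : C ≤ ⌈C / (1 - β * γ)⌉ * (1 - β * γ) := by
    rw [← div_le_iff₀ h2]; exact Int.le_ceil _
  obtain ⟨j, hj1, hj2⟩ := Int.exists_greatest_of_bdd (P := fun j => j ≤ f j)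
    ⟨⌈C / (1 - β * γ)⌉, fun z hz => by
      have hz' : (z : ℝ) ≤ f z := by exact_mod_cast hz
      have : (z : ℝ) ≤ ⌈C / (1 - β * γ)⌉ :=
        le_of_mul_le_mul_right (by nlinarith [(hC z).2]) h2
      exact_mod_cast this⟩
    ⟨-⌈C / (1 - β * γ)⌉, by
      have := (hC (-⌈C / (1 - β * γ)⌉)).1
      have h3 : ((-⌈C / (1 - β * γ)⌉ : ℤ) : ℝ) ≤ f (-⌈C / (1 - β * γ)⌉) := by
        push_cast at this ⊢
        nlinarith
      exact_mod_cast h3⟩
  have hfix : f j = j := le_antisymm (hj2 _ (hmono hj1)) hj1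
  refine ⟨⌊x - β * j⌋, j, ⟨?_, ?_⟩, ⟨?_, ?_⟩⟩
  · linarith [Int.floor_le (x - β * j)]
  · linarith [Int.lt_floor_add_one (x - β * j)]
  · have a3 : (f j : ℝ) ≤ y - γ * ⌊x - β * j⌋ := Int.floor_le _
    rw [hfix] at a3; linarith
  · have a4 : y - γ * ⌊x - β * j⌋ < f j + 1 := Int.lt_floor_add_one _
    rw [hfix] at a4; linarith

/-- A half-open unit grid cell. -/
def ucell (k : ℤ × ℤ) : Set (ℝ × ℝ) := Ico (k.1 : ℝ) (k.1 + 1) ×ˢ Ico (k.2 : ℝ) (k.2 + 1)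

lemma measurableSet_ucell (k : ℤ × ℤ) : MeasurableSet (ucell k) :=
  measurableSet_Ico.prod measurableSet_Ico

lemma volume_ucell (k : ℤ × ℤ) : volume (ucell k) = 1 := by
  rw [ucell, Measure.volume_eq_prod, Measure.prod_prod]; simp

lemma ucell_disjoint {k l : ℤ × ℤ} (h : k ≠ l) : Disjoint (ucell k) (ucell l) := by
  rw [Set.disjoint_left]
  rintro z ⟨h1, h2⟩ ⟨h3, h4⟩
  apply h
  ext
  · rw [← Int.floor_eq_iff.mpr h1, ← Int.floor_eq_iff.mpr h3]
  · rw [← Int.floor_eq_iff.mpr h2, ← Int.floor_eq_iff.mpr h4]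

lemma card_le_volume (S : Finset (ℤ × ℤ)) {W : Set (ℝ × ℝ)} (h : ∀ k ∈ S, ucell k ⊆ W) :
    (S.card : ℝ≥0∞) ≤ volume W := by
  have h1 := measure_biUnion_finset (μ := (volume : Measure (ℝ × ℝ))) (s := S) (f := ucell)
    (fun k _ l _ hkl => ucell_disjoint hkl) (fun k _ => measurableSet_ucell k)
  simp only [volume_ucell, Finset.sum_const, nsmul_eq_mul, mul_one] at h1
  rw [← h1]
  exact measure_mono (iUnion₂_subset h)

lemma card_le_volume2 (P a b : E2) (S : Finset (ℤ × ℤ)) {W : Set E2} (hW : volume W ≠ ⊤)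
    (h : ∀ k ∈ S, plane P a b (ucell k) ⊆ W) :
    |det2 a b| * S.card ≤ volume.real W := by
  have h1 := card_le_volume S (W := {z : ℝ × ℝ | P + z.1 • a + z.2 • b ∈ W})
    (fun k hk z hz => h k hk ⟨z, hz, rfl⟩)
  have h2 : volume (plane P a b {z : ℝ × ℝ | P + z.1 • a + z.2 • b ∈ W}) ≤ volume W :=
    measure_mono (by rintro _ ⟨z, hz, rfl⟩; exact hz)
  rw [volume_plane2] at h2
  have h3 : ENNReal.ofReal (|det2 a b| * S.card) ≤ volume W := by
    rw [ENNReal.ofReal_mul (abs_nonneg _), ENNReal.ofReal_natCast]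
    exact le_trans (by gcongr) h2
  exact (ENNReal.ofReal_le_iff_le_toReal hW).mp h3

lemma finite_cells (P a b : E2) (hab : det2 a b ≠ 0) {W : Set E2} (hW : volume W ≠ ⊤) :
    {k : ℤ × ℤ | plane P a b (ucell k) ⊆ W}.Finite := by
  by_contra hinf
  obtain ⟨n, hn⟩ := exists_nat_gt (volume.real W / |det2 a b|)
  obtain ⟨S, hS, hc⟩ := Set.Infinite.exists_subset_card_eq hinf n
  have := card_le_volume2 P a b S hW (fun k hk => hS hk)
  rw [div_lt_iff₀ (abs_pos.mpr hab), ← hc] at hn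
  linarith

lemma norm2_sq (x : E2) : ‖x‖ ^ 2 = x 0 ^ 2 + x 1 ^ 2 := by
  simp [EuclideanSpace.real_norm_sq_eq, Fin.sum_univ_two]

lemma inner2 (x y : E2) : inner ℝ x y = x 0 * y 0 + x 1 * y 1 := by
  simp [PiLp.inner_apply, Fin.sum_univ_two]; ring

lemma ext2 {x y : E2} (h0 : x 0 = y 0) (h1 : x 1 = y 1) : x = y := by
  ext i; fin_cases i
  · exact h0
  · exact h1

/-- A trace-free map of the plane has zero diagonal in some orthonormal frame. -/
lemma exists_frame (A : E2 →L[ℝ] E2) (htr : LinearMap.trace ℝ _ A.toLinearMap = 0) :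
    ∃ (a b : E2) (c d : ℝ), ‖a‖ = 1 ∧ ‖b‖ = 1 ∧ inner ℝ a b = 0 ∧ det2 a b = 1 ∧
      (∀ z : E2, ∃ u w : ℝ, z = u • a + w • b ∧ |u| ≤ ‖z‖ ∧ |w| ≤ ‖z‖) ∧
      A a = c • b ∧ A b = d • a ∧ c * d = -LinearMap.det A.toLinearMap := by
  obtain ⟨α, hα⟩ : ∃ α, α = A !₂[1, 0] 0 := ⟨_, rfl⟩
  obtain ⟨β, hβ⟩ : ∃ β, β = A !₂[0, 1] 0 := ⟨_, rfl⟩
  obtain ⟨γ, hγ⟩ : ∃ γ, γ = A !₂[1, 0] 1 := ⟨_, rfl⟩
  obtain ⟨δ, hδ⟩ : ∃ δ, δ = A !₂[0, 1] 1 := ⟨_, rfl⟩
  have e0 : (EuclideanSpace.basisFun (Fin 2) ℝ).toBasis 0 = !₂[1, 0] := ext2 (by simp) (by simp)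
  have e1 : (EuclideanSpace.basisFun (Fin 2) ℝ).toBasis 1 = !₂[0, 1] := ext2 (by simp) (by simp)
  have hM : LinearMap.toMatrix (EuclideanSpace.basisFun (Fin 2) ℝ).toBasis
      (EuclideanSpace.basisFun (Fin 2) ℝ).toBasis A.toLinearMap = !![α, β; γ, δ] := by
    ext i j
    rw [LinearMap.toMatrix_apply]
    fin_cases i <;> fin_cases j <;> simp only [Fin.zero_eta, Fin.mk_one, e0, e1] <;>
      simp [hα, hβ, hγ, hδ]
  rw [LinearMap.trace_eq_matrix_trace ℝ (EuclideanSpace.basisFun (Fin 2) ℝ).toBasis, hM,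
    Matrix.trace_fin_two_of] at htr
  rw [← LinearMap.det_toMatrix (EuclideanSpace.basisFun (Fin 2) ℝ).toBasis, hM,
    Matrix.det_fin_two_of]
  obtain rfl : δ = -α := by linarith
  have hA : ∀ x y : ℝ, A !₂[x, y] = !₂[α * x + β * y, γ * x - α * y] := by
    intro x y
    have : (!₂[x, y] : E2) = x • !₂[1, 0] + y • !₂[0, 1] := ext2 (by simp) (by simp)
    rw [this, map_add, map_smul, map_smul]
    refine ext2 ?_ ?_
    · simp only [PiLp.add_apply, PiLp.smul_apply, ← hα, ← hβ]; simp; ring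
    · simp only [PiLp.add_apply, PiLp.smul_apply, ← hγ, ← hδ]; simp; ring
  obtain ⟨x, y, hxy, hq⟩ : ∃ x y : ℝ, x ^ 2 + y ^ 2 = 1 ∧
      α * (x ^ 2 - y ^ 2) + (β + γ) * x * y = 0 := by
    have hc : ContinuousOn (fun φ : ℝ => α * (Real.cos φ ^ 2 - Real.sin φ ^ 2) +
      (β + γ) * Real.cos φ * Real.sin φ) (uIcc 0 (Real.pi / 2)) := by fun_prop
    obtain ⟨φ, -, hφ⟩ := intermediate_value_uIcc hc (show (0 : ℝ) ∈ _ by
      simp only [Real.cos_zero, Real.sin_zero, Real.cos_pi_div_two, Real.sin_pi_div_two]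
      rcases le_total 0 α with h | h
      · exact mem_uIcc_of_ge (by linarith) (by linarith)
      · exact mem_uIcc_of_le (by linarith) (by linarith))
    exact ⟨_, _, Real.cos_sq_add_sin_sq φ, hφ⟩
  have na : ‖(!₂[x, y] : E2)‖ = 1 := by
    rw [← sq_eq_sq₀ (norm_nonneg _) zero_le_one, norm2_sq]; simp; linarith
  have nb : ‖(!₂[-y, x] : E2)‖ = 1 := by
    rw [← sq_eq_sq₀ (norm_nonneg _) zero_le_one, norm2_sq]; simp; linarith
  refine ⟨!₂[x, y], !₂[-y, x], -y * (α * x + β * y) + x * (γ * x - α * y),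
    x * (α * (-y) + β * x) + y * (γ * (-y) - α * x), na, nb, ?_, ?_, fun z => ?_, ?_, ?_, ?_⟩
  · rw [inner2]; simp; ring
  · simp [det2]; linarith
  · refine ⟨inner ℝ z !₂[x, y], inner ℝ z !₂[-y, x], ext2 ?_ ?_, ?_, ?_⟩
    · simp only [inner2]; simp; linear_combination (-z 0) * hxy
    · simp only [inner2]; simp; linear_combination (-z 1) * hxy
    · simpa [na] using abs_real_inner_le_norm z !₂[x, y]
    · simpa [nb] using abs_real_inner_le_norm z !₂[-y, x]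
  · rw [hA]
    refine ext2 ?_ ?_
    · simp; linear_combination x * hq - (α * x + β * y) * hxy
    · simp; linear_combination y * hq - (γ * x - α * y) * hxy
  · rw [hA]
    refine ext2 ?_ ?_
    · simp; linear_combination y * hq - (α * (-y) + β * x) * hxy
    · simp; linear_combination (-x) * hq - (γ * (-y) - α * x) * hxy
  · linear_combination (-(α * (x ^ 2 - y ^ 2) + (β + γ) * x * y)) * hq +
      (α ^ 2 + β * γ) * (x ^ 2 + y ^ 2 + 1) * hxy

/-- The weight of a velocity. -/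
noncomputable def JJ (h : ℝ) (g : E2) : ℝ := 1 / √(1 + (g 0) ^ 2 + h ^ 2 * (g 1) ^ 2)

lemma JJ_pos (h : ℝ) (g : E2) : 0 < JJ h g := by unfold JJ; positivity

lemma continuous_JJ (h : ℝ) : Continuous (JJ h) := by
  unfold JJ
  refine continuous_const.div (by fun_prop) fun g => ?_
  positivity

/-- The ruled set over `X` has a cover by sheared square cylinders of weight at most `B`. -/
def Cov (V : E2 → E2) (L h : ℝ) (X : Set E2) (B : ℝ) : Prop :=
  ∃ (k : ℕ) (c a b g : Fin k → E2),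
    (∀ i, a i ≠ 0 ∧ ‖b i‖ = ‖a i‖ ∧ inner ℝ (a i) (b i) = 0) ∧
    {z : ℝ × E2 | ∃ p ∈ X, abs z.1 ≤ L ∧ z.2 = p + z.1 • V p} ⊆
      ⋃ i, {z : ℝ × E2 | ∃ x ∈ Set.Icc (0 : ℝ) 1, ∃ y ∈ Set.Icc (0 : ℝ) 1,
        z.2 = c i + x • a i + y • b i + z.1 • g i} ∧
    ∑ i, ‖a i‖ ^ 2 * JJ h (g i) ≤ B

lemma Cov.of_fintype {V : E2 → E2} {L h : ℝ} {X : Set E2} {B : ℝ} {ι : Type} [Fintype ι]
    (c a b g : ι → E2) (h1 : ∀ i, a i ≠ 0 ∧ ‖b i‖ = ‖a i‖ ∧ inner ℝ (a i) (b i) = 0)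
    (h2 : {z : ℝ × E2 | ∃ p ∈ X, abs z.1 ≤ L ∧ z.2 = p + z.1 • V p} ⊆
      ⋃ i, {z : ℝ × E2 | ∃ x ∈ Set.Icc (0 : ℝ) 1, ∃ y ∈ Set.Icc (0 : ℝ) 1,
        z.2 = c i + x • a i + y • b i + z.1 • g i})
    (h3 : ∑ i, ‖a i‖ ^ 2 * JJ h (g i) ≤ B) : Cov V L h X B := by
  let e := (Fintype.equivFin ι).symm
  refine ⟨_, c ∘ e, a ∘ e, b ∘ e, g ∘ e, fun i => h1 _, fun z hz => ?_, ?_⟩
  · obtain ⟨i, hi⟩ := mem_iUnion.mp (h2 hz)
    exact mem_iUnion.mpr ⟨e.symm i, by simpa using hi⟩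
  · exact (Equiv.sum_comp e (fun i => ‖a i‖ ^ 2 * JJ h (g i))).trans_le h3

lemma Cov.mono {V : E2 → E2} {L h : ℝ} {X Y : Set E2} {B C : ℝ} (H : Cov V L h X B)
    (h1 : Y ⊆ X) (h2 : B ≤ C) : Cov V L h Y C := by
  obtain ⟨k, c, a, b, g, h3, h4, h5⟩ := H
  exact ⟨k, c, a, b, g, h3, fun z ⟨p, hp, hz⟩ => h4 ⟨p, h1 hp, hz⟩, h5.trans h2⟩

lemma Cov.biUnion {V : E2 → E2} {L h : ℝ} {ι : Type} (S : Finset ι) (X : ι → Set E2) (B : ι → ℝ)
    (H : ∀ i ∈ S, Cov V L h (X i) (B i)) : Cov V L h (⋃ i ∈ S, X i) (∑ i ∈ S, B i) := by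
  have H' : ∀ i : S, Cov V L h (X i) (B i) := fun i => H i i.2
  choose k c a b g h1 h2 h3 using H'
  refine Cov.of_fintype (ι := Σ i : S, Fin (k i)) (fun z => c z.1 z.2) (fun z => a z.1 z.2)
    (fun z => b z.1 z.2) (fun z => g z.1 z.2) (fun z => h1 _ _) ?_ ?_
  · rintro z ⟨p, hp, hz⟩
    obtain ⟨i, hi, hp⟩ := mem_iUnion₂.mp hp
    obtain ⟨j, hj⟩ := mem_iUnion.mp (h2 ⟨i, hi⟩ ⟨p, hp, hz⟩)
    exact mem_iUnion.mpr ⟨⟨⟨i, hi⟩, j⟩, hj⟩
  · rw [Fintype.sum_sigma, ← Finset.sum_coe_sort S B]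
    exact Finset.sum_le_sum fun i _ => h3 i

lemma inv_bound {s c d u w m n K L κ M : ℝ} (hs : |s| ≤ L) (hd : |d| ≤ K)
    (hκ : 0 < κ) (h0 : 0 ≤ c * d) (h1 : L ^ 2 * (c * d) ≤ 1 - κ)
    (e1 : u + s * d * w = m) (e2 : w + s * c * u = n) (hm : |m| ≤ M) (hn : |n| ≤ M) :
    |u| ≤ (1 + L * K) * M / κ := by
  have h2 : s ^ 2 ≤ L ^ 2 := sq_le_sq' (abs_le.mp hs).1 (abs_le.mp hs).2
  have h3 : κ ≤ 1 - s ^ 2 * (c * d) := by nlinarith
  have h4 : u * (1 - s ^ 2 * (c * d)) = m - s * d * n := by rw [← e1, ← e2]; ring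
  have h5 : |m - s * d * n| ≤ (1 + L * K) * M := by
    refine (abs_sub _ _).trans ?_
    rw [abs_mul, abs_mul]
    have : |s| * |d| * |n| ≤ L * K * M := by
      have hL := (abs_nonneg s).trans hs
      have hK := (abs_nonneg d).trans hd
      gcongr
    linarith
  rw [le_div_iff₀ hκ]
  rw [← h4, abs_mul, abs_of_nonneg (hκ.le.trans h3)] at h5
  exact le_trans (by gcongr) h5

/-- The local step: over a set on which `V` is close to a trace-free affine field. -/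
lemma local_cover {V : E2 → E2} {L h κ K e η ζ m : ℝ} {X W : Set E2} (p₀ v₀ : E2)
    (A : E2 →L[ℝ] E2) (htr : LinearMap.trace ℝ _ A.toLinearMap = 0)
    (hd0 : LinearMap.det A.toLinearMap ≤ 0) (hκ : 0 < κ)
    (hd1 : L ^ 2 * (-LinearMap.det A.toLinearMap) ≤ 1 - κ) (hK : ‖A‖ ≤ K) (hη : 0 < η)
    (hX : ∀ p ∈ X, ‖V p - v₀ - A (p - p₀)‖ ≤ e)
    (hζ : 2 * ((1 + L * K) * (L * e + η) / κ + η) ≤ ζ)
    (hW : ∀ p ∈ X, ∀ x, ‖x - p‖ ≤ ζ → x ∈ W) (hW' : volume W ≠ ⊤) (hm : 0 ≤ m)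
    (hJ : ∀ x ∈ W, JJ h (v₀ + A (x - p₀)) ≤ m) : Cov V L h X (m * volume.real W) := by
  obtain ⟨a, b, c, d, na, nb, hab, hdet, hsp, hAa, hAb, hcd⟩ := exists_frame A htr
  have hc : |c| ≤ K := by
    have := A.le_opNorm a
    rw [hAa, norm_smul, na, nb, Real.norm_eq_abs] at this
    linarith
  have hd : |d| ≤ K := by
    have := A.le_opNorm b
    rw [hAb, norm_smul, na, nb, Real.norm_eq_abs] at this
    linarith
  rw [← hcd] at hd1
  have hcd0 : 0 ≤ c * d := by linarith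
  have hdet' : det2 (η • a) (η • b) = η ^ 2 := by
    simp only [det2, PiLp.smul_apply, smul_eq_mul] at hdet ⊢
    linear_combination η ^ 2 * hdet
  have hfin := finite_cells p₀ (η • a) (η • b) (by rw [hdet']; positivity) hW'
  let q : ℤ × ℤ → E2 := fun k => p₀ + (k.1 : ℝ) • η • a + (k.2 : ℝ) • η • b
  refine Cov.of_fintype (ι := hfin.toFinset) (fun k => q k) (fun _ => η • a) (fun _ => η • b)
    (fun k => v₀ + A (q k - p₀)) (fun _ => ⟨?_, ?_, ?_⟩) ?_ ?_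
  · rw [← norm_ne_zero_iff, norm_smul, na]; simp [hη.ne']
  · rw [norm_smul, norm_smul, na, nb]
  · rw [real_inner_smul_left, real_inner_smul_right, hab]; simp
  · rintro ⟨s, z⟩ ⟨p, hp, hs, hz⟩
    simp only at hs hz
    obtain ⟨P1, P2, hP, -, -⟩ := hsp (p - p₀)
    obtain ⟨E1, E2, hE, hE1, hE2⟩ := hsp (V p - v₀ - A (p - p₀))
    replace hE1 := hE1.trans (hX p hp)
    replace hE2 := hE2.trans (hX p hp)
    have hs2 : s ^ 2 ≤ L ^ 2 := sq_le_sq' (abs_le.mp hs).1 (abs_le.mp hs).2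
    obtain ⟨i, j, hi, hj⟩ := lattice_fix (β := s * d) (γ := s * c) (by nlinarith) (by nlinarith)
      ((P1 + s * d * P2 + s * E1) / η) ((P2 + s * c * P1 + s * E2) / η)
    obtain ⟨ξ, hξ⟩ : ∃ ξ, ξ = (P1 + s * d * P2 + s * E1) / η - s * d * j - i := ⟨_, rfl⟩
    obtain ⟨ξ', hξ'⟩ : ∃ ξ', ξ' = (P2 + s * c * P1 + s * E2) / η - s * c * i - j := ⟨_, rfl⟩
    rw [← hξ] at hi
    rw [← hξ'] at hj
    have e1 : (η * i - P1) + s * d * (η * j - P2) = s * E1 - η * ξ := by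
      rw [hξ]; field_simp; ring
    have e2 : (η * j - P2) + s * c * (η * i - P1) = s * E2 - η * ξ' := by
      rw [hξ']; field_simp; ring
    have hb : ∀ E x : ℝ, |E| ≤ e → x ∈ Ico (0 : ℝ) 1 → |s * E - η * x| ≤ L * e + η := by
      intro E x h1 h2
      refine (abs_sub _ _).trans (add_le_add ?_ ?_)
      · rw [abs_mul]
        exact mul_le_mul hs h1 (abs_nonneg _) ((abs_nonneg _).trans hs)
      · rw [abs_of_nonneg (mul_nonneg hη.le h2.1)]
        exact mul_le_of_le_one_right hη.le h2.2.le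
    have u1 := inv_bound hs hd hκ hcd0 hd1 e1 e2 (hb _ _ hE1 hi) (hb _ _ hE2 hj)
    have u2 := inv_bound hs hc hκ (by linarith [mul_comm c d]) (by rw [mul_comm d c]; exact hd1)
      e2 e1 (hb _ _ hE2 hj) (hb _ _ hE1 hi)
    have hp' : p = p₀ + P1 • a + P2 • b := by rw [add_assoc, ← hP]; abel
    have hmem : (i, j) ∈ hfin.toFinset := by
      rw [Finite.mem_toFinset, mem_ofPred_eq]
      intro x hx
      obtain ⟨t1, t2, ⟨h1, h2⟩, rfl⟩ := mem_plane.mp hx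
      simp only [mem_Ico] at h1 h2
      refine hW p hp _ ?_
      have : p₀ + t1 • η • a + t2 • η • b - p = ((η * i - P1) + η * (t1 - i)) • a +
          ((η * j - P2) + η * (t2 - j)) • b := by rw [hp']; module
      rw [this]
      refine (norm_add_le _ _).trans ?_
      rw [norm_smul, norm_smul, na, nb, Real.norm_eq_abs, Real.norm_eq_abs, mul_one, mul_one]
      have v1 : |η * (t1 - i)| ≤ η := by
        rw [abs_of_nonneg (mul_nonneg hη.le (by linarith))]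
        exact mul_le_of_le_one_right hη.le (by linarith)
      have v2 : |η * (t2 - j)| ≤ η := by
        rw [abs_of_nonneg (mul_nonneg hη.le (by linarith))]
        exact mul_le_of_le_one_right hη.le (by linarith)
      linarith [abs_add_le (η * i - P1) (η * (t1 - i)), abs_add_le (η * j - P2) (η * (t2 - j))]
    refine mem_iUnion.mpr ⟨⟨(i, j), hmem⟩, ξ, Ico_subset_Icc_self hi, ξ', Ico_subset_Icc_self hj, ?_⟩
    have hV : V p = v₀ + A (p - p₀) + (E1 • a + E2 • b) := by rw [← hE]; abel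
    have hq : q (i, j) - p₀ = (i : ℝ) • η • a + (j : ℝ) • η • b := by simp only [q]; abel
    simp only
    rw [hz, hV, hP, hq]
    simp only [map_add, map_smul, hAa, hAb, q]
    rw [hp']
    match_scalars
    · ring
    · linear_combination (-1) * e1
    · linear_combination (-1) * e2
    · ring
  · have h1 := card_le_volume2 p₀ (η • a) (η • b) hfin.toFinset hW'
      (fun k hk => (hfin.mem_toFinset.mp hk))
    rw [hdet', abs_of_nonneg (sq_nonneg _)] at h1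
    calc _ ≤ ∑ _k : hfin.toFinset, η ^ 2 * m := by
          refine Finset.sum_le_sum fun k _ => ?_
          rw [norm_smul, na, mul_one, Real.norm_eq_abs, sq_abs]
          refine mul_le_mul_of_nonneg_left (hJ _ ?_) (sq_nonneg _)
          refine hfin.mem_toFinset.mp k.2 (mem_plane.mpr ⟨_, _, ⟨?_, ?_⟩, rfl⟩) <;> simp
      _ ≤ _ := by
          simp only [Finset.sum_const, Finset.card_univ, Fintype.card_coe, nsmul_eq_mul]
          nlinarith

end Crest.Agent.R211
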