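import Mathlib
import Crest.Agent.R211.Lattice

/-!
Covering a ruled set by sheared square cylinders: the global step.
-/

set_option autoImplicit false

namespace Crest.Agent.R211

open MeasureTheory Set Metric Filter Topology
open scoped ENNReal

/-- A half-open grid square of side `r`. -/
def Qc (r : ℝ) (k : ℤ × ℤ) : Set E2 := plane 0 !₂[r, 0] !₂[0, r] (ucell k)

lemma mem_Qc {r : ℝ} (hr : 0 < r) {k : ℤ × ℤ} {x : E2} :
    x ∈ Qc r k ↔ (x 0 / r, x 1 / r) ∈ ucell k := by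
  rw [Qc, mem_plane]
  constructor
  · rintro ⟨s, t, h, rfl⟩
    simpa [hr.ne'] using h
  · intro h
    exact ⟨_, _, h, ext2 (by simp [hr.ne']) (by simp [hr.ne'])⟩

lemma mem_Qc' {r : ℝ} (hr : 0 < r) {k : ℤ × ℤ} {x : E2} (h : x ∈ Qc r k) :
    (k.1 * r ≤ x 0 ∧ x 0 ≤ k.1 * r + r) ∧ (k.2 * r ≤ x 1 ∧ x 1 ≤ k.2 * r + r) := by
  obtain ⟨⟨h1, h2⟩, h3, h4⟩ := (mem_Qc hr).mp h
  simp only at h1 h2 h3 h4
  rw [le_div_iff₀ hr] at h1 h3
  rw [div_lt_iff₀ hr] at h2 h4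
  refine ⟨⟨h1, by linarith⟩, h3, by linarith⟩

lemma measurableSet_Qc {r : ℝ} (hr : 0 < r) (k : ℤ × ℤ) : MeasurableSet (Qc r k) := by
  have : Qc r k = (fun x : E2 => (x 0 / r, x 1 / r)) ⁻¹' ucell k := by
    ext x; exact mem_Qc hr
  rw [this]
  exact (measurableSet_ucell k).preimage (Continuous.measurable (by fun_prop))

lemma det2_std (r : ℝ) : det2 !₂[r, 0] !₂[0, r] = r ^ 2 := by simp [det2]; ring

lemma volume_Qc (r : ℝ) (k : ℤ × ℤ) : volume (Qc r k) = ENNReal.ofReal (r ^ 2) := by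
  rw [Qc, volume_plane2, volume_ucell, det2_std, abs_of_nonneg (sq_nonneg _), mul_one]

lemma Qc_disjoint {r : ℝ} (hr : 0 < r) {k l : ℤ × ℤ} (h : k ≠ l) :
    Disjoint (Qc r k) (Qc r l) := by
  rw [Set.disjoint_left]
  intro x h1 h2
  exact Set.disjoint_left.mp (ucell_disjoint h) ((mem_Qc hr).mp h1) ((mem_Qc hr).mp h2)

lemma exists_Qc {r : ℝ} (hr : 0 < r) (x : E2) : ∃ k, x ∈ Qc r k :=
  ⟨(⌊x 0 / r⌋, ⌊x 1 / r⌋), (mem_Qc hr).mpr
    ⟨⟨Int.floor_le _, Int.lt_floor_add_one _⟩, Int.floor_le _, Int.lt_floor_add_one _⟩⟩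

lemma norm2_le (x : E2) : ‖x‖ ≤ |x 0| + |x 1| := by
  rw [← sq_le_sq₀ (norm_nonneg _) (by positivity), norm2_sq]
  nlinarith [sq_abs (x 0), sq_abs (x 1), mul_nonneg (abs_nonneg (x 0)) (abs_nonneg (x 1))]

lemma Qc_norm {r : ℝ} (hr : 0 < r) {k : ℤ × ℤ} {x y : E2} (hx : x ∈ Qc r k) (hy : y ∈ Qc r k) :
    ‖x - y‖ ≤ 2 * r := by
  obtain ⟨⟨h1, h2⟩, h3, h4⟩ := mem_Qc' hr hx
  obtain ⟨⟨h5, h6⟩, h7, h8⟩ := mem_Qc' hr hy
  refine (norm2_le _).trans ?_
  simp only [PiLp.sub_apply]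
  have a1 : |x 0 - y 0| ≤ r := abs_le.mpr ⟨by linarith, by linarith⟩
  have a2 : |x 1 - y 1| ≤ r := abs_le.mpr ⟨by linarith, by linarith⟩
  linarith

lemma riemann_upper {D : Set E2} (hD : IsCompact D) {F : E2 → ℝ} (hF : ContinuousOn F D)
    {ω : ℝ} (hω : 0 < ω) :
    ∃ r₀ > 0, ∀ r, 0 < r → r ≤ r₀ → ∃ (S : Finset (ℤ × ℤ)) (p : ℤ × ℤ → E2),
      (∀ k ∈ S, p k ∈ D ∩ Qc r k) ∧ D = ⋃ k ∈ S, D ∩ Qc r k ∧
      ∑ k ∈ S, r ^ 2 * F (p k) ≤ (∫ x in D, F x) + ω := by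
  obtain ⟨B, hB⟩ := hD.exists_bound_of_continuousOn hF
  set B' := |B| + 1 with hB'
  have hB0 : 0 < B' := by positivity
  have hB1 : ∀ x ∈ D, F x ≤ B' := fun x hx => by
    linarith [hB x hx, le_abs_self B, le_abs_self (F x), Real.norm_eq_abs (F x)]
  set M := volume.real D with hM
  have hM0 : 0 ≤ M := measureReal_nonneg
  obtain ⟨δ₁, hδ₁, h1⟩ := Metric.uniformContinuousOn_iff_le.mp
    (hD.uniformContinuousOn_of_continuous hF) (ω / (2 * (M + 1))) (by positivity)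
  have ht := (ENNReal.tendsto_toReal hD.measure_lt_top.ne).comp
    (tendsto_measure_cthickening_of_isCompact (μ := volume) hD)
  obtain ⟨δ₂, hδ₂, h2⟩ := Metric.tendsto_nhds_nhds.mp ht (ω / (2 * B')) (by positivity)
  refine ⟨min δ₁ δ₂ / 4, by positivity, fun r hr hr' => ?_⟩
  have hr1 : 2 * r ≤ δ₁ := by linarith [min_le_left δ₁ δ₂]
  have hr2 : 2 * r < δ₂ := by linarith [min_le_right δ₁ δ₂]
  have hW : volume (cthickening (2 * r) D) ≠ ⊤ := hD.isBounded.cthickening.measure_lt_top.ne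
  have hsub : ∀ k, (D ∩ Qc r k).Nonempty → Qc r k ⊆ cthickening (2 * r) D := by
    rintro k ⟨y, hy1, hy2⟩ x hx
    exact mem_cthickening_of_dist_le x y _ _ hy1 (by rw [dist_eq_norm]; exact Qc_norm hr hx hy2)
  have hfin : {k | (D ∩ Qc r k).Nonempty}.Finite :=
    (finite_cells 0 !₂[r, 0] !₂[0, r] (by rw [det2_std]; positivity) hW).subset hsub
  have : ∀ k, ∃ p : E2, (D ∩ Qc r k).Nonempty → p ∈ D ∩ Qc r k := fun k => by
    by_cases h : (D ∩ Qc r k).Nonempty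
    · exact ⟨h.some, fun _ => h.some_mem⟩
    · exact ⟨0, fun h' => absurd h' h⟩
  choose p hp using this
  have hp' : ∀ k ∈ hfin.toFinset, p k ∈ D ∩ Qc r k := fun k hk => hp k (hfin.mem_toFinset.mp hk)
  have hcov : D = ⋃ k ∈ hfin.toFinset, D ∩ Qc r k := by
    apply Subset.antisymm
    · intro x hx
      obtain ⟨k, hk⟩ := exists_Qc hr x
      exact mem_iUnion₂.mpr ⟨k, hfin.mem_toFinset.mpr ⟨x, hx, hk⟩, hx, hk⟩
    · exact iUnion₂_subset fun _ _ => inter_subset_left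
  refine ⟨hfin.toFinset, p, hp', hcov, ?_⟩
  have hm : ∀ k, MeasurableSet (D ∩ Qc r k) := fun k =>
    hD.measurableSet.inter (measurableSet_Qc hr k)
  have hfi : ∀ k, volume (D ∩ Qc r k) ≠ ⊤ := fun k =>
    ((measure_mono inter_subset_left).trans_lt hD.measure_lt_top).ne
  have hi : ∀ k, IntegrableOn F (D ∩ Qc r k) := fun k =>
    (hF.integrableOn_compact hD).mono_set inter_subset_left
  have hdj : (↑hfin.toFinset : Set (ℤ × ℤ)).PairwiseDisjoint fun k => D ∩ Qc r k :=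
    fun k _ l _ hkl => (Qc_disjoint hr hkl).mono inter_subset_right inter_subset_right
  have e1 : ∫ x in D, F x = ∑ k ∈ hfin.toFinset, ∫ x in D ∩ Qc r k, F x := by
    rw [← integral_biUnion_finset _ (fun k _ => hm k) hdj (fun k _ => hi k), ← hcov]
  have e2 : M = ∑ k ∈ hfin.toFinset, volume.real (D ∩ Qc r k) := by
    rw [← measureReal_biUnion_finset hdj (fun k _ => hm k) (fun k _ => hfi k), ← hcov]
  have e3 := card_le_volume2 0 !₂[r, 0] !₂[0, r] hfin.toFinset hW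
    (fun k hk => hsub k (hfin.mem_toFinset.mp hk))
  rw [det2_std, abs_of_nonneg (sq_nonneg _)] at e3
  have e4 : volume.real (cthickening (2 * r) D) ≤ M + ω / (2 * B') := by
    have := h2 (x := 2 * r) (by rw [Real.dist_eq, sub_zero, abs_of_pos (by linarith)]; exact hr2)
    rw [Real.dist_eq] at this
    have := (abs_lt.mp this).2
    simp only [Function.comp] at this
    rw [hM, measureReal_def, measureReal_def]
    linarith
  have e5 : ∀ k ∈ hfin.toFinset, r ^ 2 * F (p k) ≤ (∫ x in D ∩ Qc r k, F x) +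
      (ω / (2 * (M + 1)) - B') * volume.real (D ∩ Qc r k) + B' * r ^ 2 := by
    intro k hk
    have a1 := setIntegral_ge_of_const_le_real (c := F (p k) - ω / (2 * (M + 1))) (hm k) (hfi k)
      (fun x hx => by
        have := h1 x hx.1 (p k) (hp' k hk).1 (by
          rw [dist_eq_norm]; exact (Qc_norm hr hx.2 (hp' k hk).2).trans hr1)
        rw [Real.dist_eq] at this
        linarith [(abs_le.mp this).1]) (hi k)
    have a2 : volume.real (D ∩ Qc r k) ≤ r ^ 2 := by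
      refine (measureReal_mono inter_subset_right (by rw [volume_Qc]; simp)).trans_eq ?_
      rw [measureReal_def, volume_Qc, ENNReal.toReal_ofReal (sq_nonneg _)]
    have a3 := hB1 _ (hp' k hk).1
    nlinarith
  refine (Finset.sum_le_sum e5).trans ?_
  rw [Finset.sum_add_distrib, Finset.sum_add_distrib, ← Finset.mul_sum, ← e1, ← e2,
    Finset.sum_const, nsmul_eq_mul]
  have a1 : ω / (2 * (M + 1)) * M ≤ ω / 2 := by
    rw [div_mul_eq_mul_div, div_le_div_iff₀ (by positivity) (by positivity)]; nlinarith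
  have a2 : B' * (ω / (2 * B')) = ω / 2 := by field_simp
  nlinarith

lemma unif_at {α β : Type} [PseudoMetricSpace α] [PseudoMetricSpace β] {D : Set α}
    (hD : IsCompact D) {f : α → β} (hf : ∀ x ∈ D, ContinuousAt f x) {ε : ℝ} (hε : 0 < ε) :
    ∃ δ > 0, ∀ x ∈ D, ∀ y, dist x y < δ → dist (f x) (f y) < ε := by
  obtain ⟨δ, hδ, h⟩ := Metric.mem_uniformity_dist.mp
    (hD.uniformContinuousAt_of_continuousAt f hf (Metric.dist_mem_uniformity hε))
  exact ⟨δ, hδ, fun x hx y hy => h hy hx⟩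

theorem cov_main
    (D : Set E2) (hD : IsCompact D) (V : E2 → E2) (U : Set E2)
    (hU : IsOpen U) (hDU : D ⊆ U) (hV : ContDiffOn ℝ 1 V U) (L h : ℝ) (hL : 0 < L)
    (htr : ∀ p ∈ D, LinearMap.trace ℝ _ (fderiv ℝ V p).toLinearMap = 0)
    (hdet : ∀ p ∈ D, -(L ^ 2)⁻¹ < LinearMap.det (fderiv ℝ V p).toLinearMap ∧
      LinearMap.det (fderiv ℝ V p).toLinearMap ≤ 0)
    (ε : ℝ) (hε : 0 < ε) : Cov V L h D ((∫ p in D, JJ h (V p)) + ε) := by
  have hVc : ContinuousOn V D := hV.continuousOn.mono hDU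
  have hA : ContinuousOn (fderiv ℝ V) U := hV.continuousOn_fderiv_of_isOpen hU le_rfl
  obtain ⟨K, hK⟩ := hD.exists_bound_of_continuousOn (hA.mono hDU)
  obtain ⟨K, hK0, hK⟩ : ∃ K : ℝ, 0 < K ∧ ∀ p ∈ D, ‖fderiv ℝ V p‖ ≤ K :=
    ⟨|K| + 1, by positivity, fun p hp => by linarith [hK p hp, le_abs_self K]⟩
  obtain ⟨κ, hκ, hκ'⟩ := hD.exists_forall_le' (a := (0 : ℝ))
    (f := fun p => 1 + L ^ 2 * LinearMap.det (fderiv ℝ V p).toLinearMap)
    (continuousOn_const.add (continuousOn_const.mul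
      (ContinuousLinearMap.continuous_det.comp_continuousOn (hA.mono hDU))))
    (fun p hp => by
      have h1 := (hdet p hp).1
      have h2 : 0 < L ^ 2 := by positivity
      have h3 := mul_lt_mul_of_pos_left h1 h2
      rw [mul_neg, mul_inv_cancel₀ h2.ne'] at h3
      linarith)
  obtain ⟨ρ, hρ, hρU⟩ := hD.exists_cthickening_subset_open hU hDU
  have hFc : ContinuousOn (fun p => JJ h (V p)) D := (continuous_JJ h).comp_continuousOn hVc
  set I := ∫ p in D, JJ h (V p) with hI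
  set M := volume.real D with hM
  have hM0 : 0 ≤ M := measureReal_nonneg
  have hI0 : 0 ≤ I := setIntegral_nonneg hD.measurableSet fun p _ => (JJ_pos _ _).le
  obtain ⟨ω, hω, hω1, hω2⟩ : ∃ ω : ℝ, 0 < ω ∧ ω ≤ 1 ∧ ω * (I + 2 * (M + 1)) ≤ ε :=
    ⟨min 1 (ε / (I + 2 * (M + 1))), by positivity, min_le_left _ _, by
      rw [← le_div_iff₀ (by positivity)]; exact min_le_right _ _⟩
  set C := 2 * ((1 + L * K) * (2 * L + 1) / κ + 1) with hC
  have hC0 : 0 < C := by positivity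
  set θ := ω / (6 * C) with hθ
  have hθ0 : 0 < θ := by positivity
  have hCθ : C * θ = ω / 6 := by rw [hθ]; field_simp
  obtain ⟨δ₁, hδ₁, h1⟩ := unif_at hD (fun x hx => hA.continuousAt (hU.mem_nhds (hDU hx))) hθ0
  obtain ⟨δ₂, hδ₂, h2⟩ := unif_at (hD.image_of_continuousOn hVc)
    (fun x _ => (continuous_JJ h).continuousAt) hω
  obtain ⟨r₀, hr₀, h3⟩ := riemann_upper hD (hFc.add (continuousOn_const (c := ω))) hω
  obtain ⟨r, hr, hr1, hr2, hr3, hr4⟩ : ∃ r : ℝ, 0 < r ∧ r ≤ r₀ ∧ 2 * r < δ₁ ∧ 2 * r ≤ ρ ∧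
      K * (4 * r) < δ₂ := by
    refine ⟨min (min r₀ (δ₁ / 4)) (min (ρ / 2) (δ₂ / (8 * K))), by positivity,
      (min_le_left _ _).trans (min_le_left _ _), ?_, ?_, ?_⟩
    · linarith [(min_le_left _ (min (ρ / 2) (δ₂ / (8 * K)))).trans (min_le_right r₀ (δ₁ / 4))]
    · linarith [(min_le_right (min r₀ (δ₁ / 4)) _).trans (min_le_left (ρ / 2) (δ₂ / (8 * K)))]
    · have := (min_le_right (min r₀ (δ₁ / 4)) _).trans (min_le_right (ρ / 2) (δ₂ / (8 * K)))
      rw [le_div_iff₀ (by positivity)] at this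
      linarith
  obtain ⟨S, p, hp, hcov, hsum⟩ := h3 r hr hr1
  have hζ : C * θ * r ≤ r / 6 := by rw [hCθ]; nlinarith
  have hζ0 : 0 < C * θ * r := by positivity
  have key : ∀ k ∈ S, Cov V L h (D ∩ Qc r k) ((1 + ω) * (r ^ 2 * (JJ h (V (p k)) + ω))) := by
    intro k hk
    obtain ⟨hpD, hpQ⟩ := hp k hk
    let W : Set E2 := {x | (x 0, x 1) ∈ Icc (k.1 * r - C * θ * r) (k.1 * r + r + C * θ * r) ×ˢ
      Icc (k.2 * r - C * θ * r) (k.2 * r + r + C * θ * r)}
    have hWv : volume W = ENNReal.ofReal ((r + 2 * (C * θ * r)) ^ 2) := by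
      rw [volume_coord, Measure.volume_eq_prod, Measure.prod_prod, Real.volume_Icc,
        Real.volume_Icc, ← ENNReal.ofReal_mul (by linarith)]
      congr 1; ring
    refine (local_cover (X := D ∩ Qc r k) (W := W) (κ := κ) (K := K) (e := θ * (2 * r))
      (η := θ * r) (ζ := C * θ * r) (m := JJ h (V (p k)) + ω) (p k) (V (p k))
      (fderiv ℝ V (p k)) (htr _ hpD) (hdet _ hpD).2 hκ (by linarith [hκ' _ hpD]) (hK _ hpD)
      (by positivity) ?_ (le_of_eq (by rw [hC]; ring)) ?_ (by rw [hWv]; simp)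
      (by linarith [JJ_pos h (V (p k))]) ?_).mono Subset.rfl ?_
    · intro x hx
      have hx' : ‖x - p k‖ ≤ 2 * r := Qc_norm hr hx.2 hpQ
      refine (Convex.norm_image_sub_le_of_norm_fderiv_le' (s := closedBall (p k) (2 * r))
        (C := θ) (fun y hy => ?_) (fun y hy => ?_) (convex_closedBall _ _)
        (mem_closedBall_self (by positivity)) (mem_closedBall_iff_norm.mpr hx')).trans
        (by gcongr)
      · have : y ∈ U := hρU (mem_cthickening_of_dist_le y (p k) _ _ hpD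
          ((mem_closedBall.mp hy).trans hr3))
        exact (hV.contDiffAt (hU.mem_nhds this)).differentiableAt one_ne_zero
      · rw [← dist_eq_norm, dist_comm]
        exact (h1 _ hpD y (by rw [dist_comm]; exact (mem_closedBall.mp hy).trans_lt hr2)).le
    · intro y hy x hx
      obtain ⟨⟨a1, a2⟩, a3, a4⟩ := mem_Qc' hr hy.2
      have b1 := abs_le.mp ((PiLp.norm_apply_le (x - y) 0).trans hx)
      have b2 := abs_le.mp ((PiLp.norm_apply_le (x - y) 1).trans hx)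
      simp only [PiLp.sub_apply] at b1 b2
      exact ⟨⟨by linarith [b1.1], by linarith [b1.2]⟩, by linarith [b2.1], by linarith [b2.2]⟩
    · rintro x ⟨⟨b1, b2⟩, b3, b4⟩
      simp only at b1 b2 b3 b4
      obtain ⟨⟨a1, a2⟩, a3, a4⟩ := mem_Qc' hr hpQ
      have hx : ‖x - p k‖ ≤ 4 * r := by
        refine (norm2_le _).trans ?_
        simp only [PiLp.sub_apply]
        have c1 : |x 0 - p k 0| ≤ 2 * r := abs_le.mpr ⟨by linarith, by linarith⟩
        have c2 : |x 1 - p k 1| ≤ 2 * r := abs_le.mpr ⟨by linarith, by linarith⟩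
        linarith
      have := h2 _ (mem_image_of_mem V hpD) (V (p k) + fderiv ℝ V (p k) (x - p k)) (by
        rw [dist_self_add_right]
        refine lt_of_le_of_lt ((ContinuousLinearMap.le_opNorm _ _).trans ?_) hr4
        exact mul_le_mul (hK _ hpD) hx (norm_nonneg _) hK0.le)
      rw [Real.dist_eq] at this
      linarith [(abs_lt.mp this).1]
    · rw [measureReal_def, hWv, ENNReal.toReal_ofReal (sq_nonneg _), hCθ]
      have c1 : (r + 2 * (ω / 6 * r)) ^ 2 ≤ (1 + ω) * r ^ 2 := by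
        have : (r + 2 * (ω / 6 * r)) ^ 2 = (1 + ω / 3) ^ 2 * r ^ 2 := by ring
        rw [this]
        exact mul_le_mul_of_nonneg_right (by nlinarith) (sq_nonneg _)
      have c2 := JJ_pos h (V (p k))
      nlinarith
  refine (Cov.biUnion S _ _ key).mono hcov.le ?_
  rw [← Finset.mul_sum]
  simp only [Pi.add_apply] at hsum
  rw [integral_add (hFc.integrableOn_compact hD) (integrableOn_const hD.measure_lt_top.ne),
    setIntegral_const, smul_eq_mul, ← hI, ← hM] at hsum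
  have c1 : (1 + ω) * (I + M * ω + ω) ≤ I + ε := by
    nlinarith [mul_nonneg hω.le hM0, mul_nonneg (mul_nonneg hω.le hM0) (sub_nonneg.mpr hω1)]
  exact (mul_le_mul_of_nonneg_left hsum (by linarith)).trans c1

theorem s0329
    (h M : ℝ) (hh : 0 < h) (hM : 0 < M) (D : Set E2) (hD : IsCompact D)
    (V : E2 → E2) (U : Set E2)
    (hU : IsOpen U) (hDU : D ⊆ U) (hV : ContDiffOn ℝ 1 V U)
    (htr : ∀ p ∈ D, LinearMap.trace ℝ _ (fderiv ℝ V p).toLinearMap = 0)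
    (hdet : ∀ p ∈ D, -(M ^ 2)⁻¹ < LinearMap.det (fderiv ℝ V p).toLinearMap ∧
      LinearMap.det (fderiv ℝ V p).toLinearMap < 0)
    (ε : ℝ) (hε : 0 < ε) :
    ∃ (k : ℕ) (u : Fin k → E3) (B : Fin k → Set E3),
      (∀ i, ‖u i‖ = 1) ∧
      (∀ i, Bornology.IsBounded (B i) ∧ ∃ O : Set E3, IsOpen O ∧
        B i = O ∩ {x | inner ℝ x (u i) = 0}) ∧
      {z : E3 | ∃ p ∈ D, ∃ x : ℝ, abs x ≤ M ∧
          z = !₂[x, p 0 + x * V p 0, h * (p 1 + x * V p 1)]} ⊆
        ⋃ i, {z : E3 | ∃ y ∈ B i, ∃ τ : ℝ, z = y + τ • u i} ∧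
      ∑ i, (μHE[2] (B i)).toReal ≤ h * (∫ p in D, JJ h (V p)) + ε := by
  obtain ⟨k, c, a, b, g, h1, h2, h3⟩ := cov_main D hD V U hU hDU hV M h hM htr
    (fun p hp => ⟨(hdet p hp).1, (hdet p hp).2.le⟩) (ε / (2 * h)) (by positivity)
  let Φ : E2 → E3 := fun ξ => !₂[0, ξ 0, h * ξ 1]
  let d : Fin k → E3 := fun i => !₂[1, g i 0, h * g i 1]
  have hd : ∀ i, ‖d i‖ = √(1 + (g i 0) ^ 2 + h ^ 2 * (g i 1) ^ 2) := fun i => by
    rw [EuclideanSpace.norm_eq]
    simp [d, Fin.sum_univ_three, mul_pow]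
  have hd0 : ∀ i, 0 < ‖d i‖ := fun i => by rw [hd]; positivity
  have hd1 : ∀ i, d i ≠ 0 := fun i => norm_pos_iff.mp (hd0 i)
  have hη : 0 < ε / (2 * (k + 1)) := by positivity
  have : ∀ i, ∃ B : Set E3, (Bornology.IsBounded B ∧ ∃ O : Set E3, IsOpen O ∧
      B = O ∩ {x | inner ℝ x (‖d i‖⁻¹ • d i) = 0}) ∧
      proj (d i) '' plane (Φ (c i)) (Φ (a i)) (Φ (b i)) unitSq ⊆ B ∧
      (μHE[2] B).toReal ≤ h * (‖a i‖ ^ 2 * JJ h (g i)) + ε / (2 * (k + 1)) := by
    intro i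
    have e : (μHE[2] (proj (d i) '' plane (Φ (c i)) (Φ (a i)) (Φ (b i)) unitSq)).toReal =
        h * (‖a i‖ ^ 2 * JJ h (g i)) := by
      rw [proj_plane, area_plane_toReal, volume_unitSq, gram_proj (hd1 i), hd, JJ]
      have e1 : det3 (Φ (a i)) (Φ (b i)) (d i) = h * det2 (a i) (b i) := by
        simp [det3, det2, Φ, d]; ring
      have e2 : |det2 (a i) (b i)| = ‖a i‖ ^ 2 := by
        rw [← gram_eq_det2, gram, (h1 i).2.1, (h1 i).2.2]
        rw [show ‖a i‖ ^ 2 * ‖a i‖ ^ 2 - 0 ^ 2 = (‖a i‖ ^ 2) ^ 2 by ring,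
          Real.sqrt_sq (sq_nonneg _)]
      rw [e1, abs_mul, e2, abs_of_pos hh]
      simp; ring
    rw [← e]
    refine exists_open_base (smul_ne_zero (inv_ne_zero (hd0 i).ne') (hd1 i)) ?_ ?_ hη
    · rw [proj_plane]; exact isCompact_plane _ _ _ isCompact_unitSq
    · rintro _ ⟨y, -, rfl⟩
      rw [real_inner_smul_right, inner_proj (hd1 i), mul_zero]
  choose B hB1 hB2 hB3 using this
  refine ⟨k, fun i => ‖d i‖⁻¹ • d i, B, fun i => norm_smul_inv_norm (hd1 i), hB1, ?_, ?_⟩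
  · rintro _ ⟨p, hp, x, hx, rfl⟩
    obtain ⟨i, s, hs, t, ht, hi⟩ := mem_iUnion.mp (h2 (a := (x, p + x • V p)) ⟨p, hp, hx, rfl⟩)
    simp only at hi
    have e0 := congrArg (fun z : E2 => z 0) hi
    have e1 := congrArg (fun z : E2 => z 1) hi
    simp only [PiLp.add_apply, PiLp.smul_apply, smul_eq_mul] at e0 e1
    refine mem_iUnion.mpr ⟨i, _, hB2 i ⟨_, mem_plane.mpr ⟨s, t, ⟨hs, ht⟩, rfl⟩, rfl⟩,
      (x + inner ℝ (Φ (c i) + s • Φ (a i) + t • Φ (b i)) (d i) / ‖d i‖ ^ 2) * ‖d i‖, ?_⟩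
    rw [smul_smul, mul_assoc, mul_inv_cancel₀ (hd0 i).ne', mul_one, proj, add_smul]
    rw [show ∀ p q r : E3, p - q + (r + q) = p + r from fun p q r => by abel, e0, e1]
    ext j
    fin_cases j <;> simp [Φ, d]
    ring
  · refine (Finset.sum_le_sum fun i _ => hB3 i).trans ?_
    rw [Finset.sum_add_distrib, ← Finset.mul_sum]
    simp only [Finset.sum_const, Finset.card_univ, Fintype.card_fin, nsmul_eq_mul]
    have a1 : (k : ℝ) * (ε / (2 * (k + 1))) ≤ ε / 2 := by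
      rw [← mul_div_assoc, div_le_div_iff₀ (by positivity) (by positivity)]; nlinarith
    have a2 : h * (ε / (2 * h)) = ε / 2 := by field_simp
    nlinarith

end Crest.Agent.R211
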