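import Mathlib
import Crest.Agent.R211.Area

/-!
Radial sweeps and triangular cylinder covers.
-/

set_option autoImplicit false

namespace Crest.Agent.R211

open MeasureTheory Set
open scoped ENNReal

lemma gram_pos {a b : E3} (hab : LinearIndependent ℝ ![a, b]) : 0 < gram a b := by
  rw [gram, Real.sqrt_pos]
  by_contra hle
  rw [LinearIndependent.pair_iff] at hab
  have h1 : ‖(‖b‖ ^ 2) • a + (-inner ℝ a b) • b‖ ^ 2 =
      ‖b‖ ^ 2 * (‖a‖ ^ 2 * ‖b‖ ^ 2 - inner ℝ a b ^ 2) := by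
    rw [norm_add_sq_real, norm_smul, norm_smul, real_inner_smul_left, real_inner_smul_right,
      mul_pow, mul_pow, Real.norm_eq_abs, Real.norm_eq_abs, sq_abs, sq_abs]
    ring
  have h2 : ‖(‖b‖ ^ 2) • a + (-inner ℝ a b) • b‖ ^ 2 ≤ 0 := by
    rw [h1]; exact mul_nonpos_of_nonneg_of_nonpos (sq_nonneg _) (not_lt.mp hle)
  have h3 : (‖b‖ ^ 2) • a + (-inner ℝ a b) • b = 0 :=
    norm_eq_zero.mp (pow_eq_zero_iff two_ne_zero |>.mp (le_antisymm h2 (sq_nonneg _)))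
  have h4 : b = 0 := norm_eq_zero.mp (pow_eq_zero_iff two_ne_zero |>.mp (hab _ _ h3).1)
  exact one_ne_zero (hab 0 1 (by simp [h4])).2

lemma affInd_of_gram {p q r : E3} (h : gram (q - p) (r - p) ≠ 0) :
    AffineIndependent ℝ ![p, q, r] := by
  rw [affineIndependent_iff_not_collinear_set, collinear_iff_of_mem (p₀ := p) (by simp)]
  rintro ⟨v, hv⟩
  obtain ⟨s, hs⟩ := hv q (by simp)
  obtain ⟨t, ht⟩ := hv r (by simp)
  apply h
  rw [hs, ht, vadd_eq_add, vadd_eq_add, add_sub_cancel_right, add_sub_cancel_right, gram_smul,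
    gram, real_inner_self_eq_norm_sq, ← sq, sub_self, Real.sqrt_zero, mul_zero]

lemma inner3 (x y : E3) : inner ℝ x y = x 0 * y 0 + x 1 * y 1 + x 2 * y 2 := by
  simp [PiLp.inner_apply, Fin.sum_univ_three]; ring

lemma gram_proj_sweep {e a b w : E3} (he : ‖e‖ = 1) (ha : inner ℝ a e = 0) (hb : inner ℝ b e = 0)
    (hw : inner ℝ w e = 0) :
    e + w ≠ 0 ∧ gram (proj (e + w) a) (proj (e + w) b) = gram a b / √(1 + ‖w‖ ^ 2) := by
  have hn : ‖e + w‖ = √(1 + ‖w‖ ^ 2) := by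
    rw [← Real.sqrt_sq (norm_nonneg (e + w)), norm_add_sq_real, real_inner_comm, hw, he]
    congr 1; ring
  have h0 : e + w ≠ 0 := by rw [← norm_pos_iff, hn]; positivity
  have he0 : e ≠ 0 := by rw [← norm_pos_iff, he]; norm_num
  refine ⟨h0, ?_⟩
  have h1 : gram a b = |det3 a b e| := by
    have := gram_proj he0 a b
    rwa [he, div_one, proj, proj, ha, hb, zero_div, zero_smul, sub_zero, sub_zero] at this
  have h2 : det3 a b w = 0 := by
    have hee : inner ℝ e e = 1 := by rw [real_inner_self_eq_norm_sq, he]; norm_num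
    rw [inner3] at ha hb hw hee
    unfold det3
    linear_combination
      (-(a 0 * (b 1 * w 2 - b 2 * w 1) - a 1 * (b 0 * w 2 - b 2 * w 0) +
        a 2 * (b 0 * w 1 - b 1 * w 0))) * hee +
      (e 0 * (b 1 * w 2 - b 2 * w 1) - e 1 * (b 0 * w 2 - b 2 * w 0) +
        e 2 * (b 0 * w 1 - b 1 * w 0)) * ha +
      (a 0 * (e 1 * w 2 - e 2 * w 1) - a 1 * (e 0 * w 2 - e 2 * w 0) +
        a 2 * (e 0 * w 1 - e 1 * w 0)) * hb +
      (a 0 * (b 1 * e 2 - b 2 * e 1) - a 1 * (b 0 * e 2 - b 2 * e 0) +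
        a 2 * (b 0 * e 1 - b 1 * e 0)) * hw
  have h3 : det3 a b (e + w) = det3 a b e := by
    have : det3 a b (e + w) = det3 a b e + det3 a b w := by
      simp only [det3, PiLp.add_apply]; ring
    rw [this, h2, add_zero]
  rw [gram_proj h0, h3, hn, h1]

lemma telescope {N : ℕ} (g : Fin (N + 1) → ℝ) :
    ∑ i : Fin N, (g i.succ - g i.castSucc) = g (Fin.last N) - g 0 := by
  have h1 := Fin.sum_univ_succ g
  have h2 := Fin.sum_univ_castSucc g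
  rw [Finset.sum_sub_distrib]
  linarith

lemma exists_piece {N : ℕ} (t : Fin (N + 1) → ℝ) {τ : ℝ} (h0 : t 0 ≤ τ) (h1 : τ ≤ t (Fin.last N))
    (h2 : t 0 < t (Fin.last N)) : ∃ i : Fin N, t i.castSucc ≤ τ ∧ τ ≤ t i.succ := by
  by_contra hc
  push Not at hc
  have h3 : ∀ i, t i ≤ τ := fun i => by
    induction i using Fin.induction with
    | zero => exact h0
    | succ i ih => exact (hc i ih).le
  cases N with
  | zero => exact lt_irrefl _ h2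
  | succ n =>
    have := hc (Fin.last n) (h3 _)
    rw [Fin.succ_last] at this
    linarith

lemma riemann_sum {α β : ℝ} {f : ℝ → ℝ} (hf : ContinuousOn f (Icc α β)) {η : ℝ} (hη : 0 < η) :
    ∃ δ > 0, ∀ (N : ℕ) (t : Fin (N + 1) → ℝ) (c : Fin N → ℝ),
      StrictMono t → t 0 = α → t (Fin.last N) = β →
      (∀ i : Fin N, t i.succ - t i.castSucc ≤ δ) →
      (∀ i : Fin N, t i.castSucc ≤ c i ∧ c i ≤ t i.succ) →
      |∑ i : Fin N, f (c i) * (t i.succ - t i.castSucc) - ∫ τ in α..β, f τ| ≤ η * (β - α) := by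
  obtain ⟨δ, hδ, h1⟩ := Metric.uniformContinuousOn_iff_le.mp
    (isCompact_Icc.uniformContinuousOn_of_continuous hf) η hη
  refine ⟨δ, hδ, fun N t c ht h0 hN hm hc => ?_⟩
  have hmem : ∀ i, t i ∈ Icc α β := fun i =>
    ⟨h0 ▸ ht.monotone (Fin.zero_le _), hN ▸ ht.monotone (Fin.le_last _)⟩
  have hint : ∀ x ∈ Icc α β, ∀ y ∈ Icc α β, IntervalIntegrable f volume x y := fun x hx y hy =>
    (hf.mono (uIcc_subset_Icc hx hy)).intervalIntegrable
  have hα : α ∈ Icc α β := h0 ▸ hmem 0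
  have e1 : ∫ τ in α..β, f τ = ∑ i : Fin N, ∫ τ in (t i.castSucc)..(t i.succ), f τ := by
    have := telescope (fun i => ∫ τ in α..t i, f τ)
    simp only [h0, hN, intervalIntegral.integral_same, sub_zero] at this
    rw [← this]
    exact Finset.sum_congr rfl fun i _ =>
      intervalIntegral.integral_interval_sub_left (hint _ hα _ (hmem _)) (hint _ hα _ (hmem _))
  have e2 : β - α = ∑ i : Fin N, (t i.succ - t i.castSucc) := by rw [telescope, h0, hN]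
  rw [e1, e2, ← Finset.sum_sub_distrib, Finset.mul_sum]
  refine (Finset.abs_sum_le_sum_abs _ _).trans (Finset.sum_le_sum fun i _ => ?_)
  have hlt : t i.castSucc < t i.succ := ht Fin.castSucc_lt_succ
  have e3 : f (c i) * (t i.succ - t i.castSucc) - ∫ τ in (t i.castSucc)..(t i.succ), f τ =
      ∫ τ in (t i.castSucc)..(t i.succ), (f (c i) - f τ) := by
    rw [intervalIntegral.integral_sub intervalIntegrable_const (hint _ (hmem _) _ (hmem _)),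
      intervalIntegral.integral_const, smul_eq_mul, mul_comm]
  rw [e3, ← Real.norm_eq_abs]
  refine (intervalIntegral.norm_integral_le_of_norm_le_const (C := η) fun x hx => ?_).trans_eq
    (by rw [abs_of_pos (sub_pos.mpr hlt)])
  rw [uIoc_of_le hlt.le] at hx
  refine h1 _ ⟨(hmem _).1.trans (hc i).1, (hc i).2.trans (hmem _).2⟩ _
    ⟨(hmem _).1.trans hx.1.le, hx.2.trans (hmem _).2⟩ ?_
  rw [Real.dist_eq]
  exact abs_le.mpr ⟨by linarith [hm i, (hc i).1, hx.2], by linarith [hm i, (hc i).2, hx.1]⟩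

lemma w_diff {a b : E3} {α β : ℝ} {w : ℝ → E3} {lam : ℝ → ℝ}
    (hlam : ContinuousOn lam (Icc α β))
    (hw' : ∀ t ∈ Icc α β, HasDerivWithinAt w (lam t • (a + t • b)) (Icc α β) t)
    {M : ℝ} (hM : ∀ t ∈ Icc α β, |lam t| ≤ M) {t₀ t₁ c τ : ℝ} (h0 : α ≤ t₀) (h1 : t₁ ≤ β)
    (hc : c ∈ Icc t₀ t₁) (hτ : τ ∈ Icc t₀ t₁) :
    ∃ Λ₀ Λ₁ : ℝ, w τ - w c = Λ₀ • a + Λ₁ • b ∧ |Λ₀| ≤ M * (t₁ - t₀) ∧
      |Λ₁ - t₀ * Λ₀| ≤ M * (t₁ - t₀) ^ 2 ∧ |Λ₁ - t₁ * Λ₀| ≤ M * (t₁ - t₀) ^ 2 := by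
  have hs : uIcc c τ ⊆ Icc t₀ t₁ := uIcc_subset_Icc hc hτ
  have hs' : uIcc c τ ⊆ Icc α β := hs.trans (Icc_subset_Icc h0 h1)
  have hl : ContinuousOn lam (uIcc c τ) := hlam.mono hs'
  have hM0 : 0 ≤ M := (abs_nonneg _).trans (hM c (hs' left_mem_uIcc))
  have i0 : IntervalIntegrable lam volume c τ := hl.intervalIntegrable
  have i1 : IntervalIntegrable (fun t => lam t * t) volume c τ :=
    (hl.mul continuousOn_id).intervalIntegrable
  have hd : |τ - c| ≤ t₁ - t₀ := abs_le.mpr ⟨by linarith [hτ.1, hc.2], by linarith [hτ.2, hc.1]⟩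
  have hb : ∀ t' ∈ Icc t₀ t₁, |(∫ t in c..τ, lam t * t) - t' * ∫ t in c..τ, lam t| ≤
      M * (t₁ - t₀) ^ 2 := by
    intro t' ht'
    rw [← intervalIntegral.integral_const_mul, ← intervalIntegral.integral_sub i1 (i0.const_mul _),
      ← Real.norm_eq_abs]
    refine (intervalIntegral.norm_integral_le_of_norm_le_const (C := M * (t₁ - t₀))
      fun x hx => ?_).trans ?_
    · have hx' := hs (uIoc_subset_uIcc hx)
      rw [show lam x * x - t' * lam x = lam x * (x - t') by ring, Real.norm_eq_abs, abs_mul]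
      refine mul_le_mul (hM x (hs' (uIoc_subset_uIcc hx))) (abs_le.mpr ⟨?_, ?_⟩) (abs_nonneg _) hM0
      · linarith [hx'.1, ht'.2]
      · linarith [hx'.2, ht'.1]
    · rw [sq, ← mul_assoc]
      exact mul_le_mul_of_nonneg_left hd (mul_nonneg hM0 ((abs_nonneg _).trans hd))
  refine ⟨∫ t in c..τ, lam t, ∫ t in c..τ, lam t * t, ?_, ?_, hb _ ⟨le_rfl, hc.1.trans hc.2⟩,
    hb _ ⟨hc.1.trans hc.2, le_rfl⟩⟩
  · rw [← intervalIntegral.integral_eq_sub_of_hasDeriv_right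
      (f' := fun t => lam t • (a + t • b)) (fun x hx => ((hw' x (hs' hx)).continuousWithinAt).mono hs')
      (fun x hx => ?_) (ContinuousOn.intervalIntegrable (hl.smul (by fun_prop)))]
    · simp only [smul_add, smul_smul]
      rw [intervalIntegral.integral_add ⟨i0.1.smul_const _, i0.2.smul_const _⟩
        ⟨i1.1.smul_const _, i1.2.smul_const _⟩,
        intervalIntegral.integral_smul_const, intervalIntegral.integral_smul_const]
    · have m1 := hs' (show min c τ ∈ uIcc c τ from ⟨le_rfl, min_le_max⟩)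
      have m2 := hs' (show max c τ ∈ uIcc c τ from ⟨min_le_max, le_rfl⟩)
      have m3 : α < x := m1.1.trans_lt hx.1
      have m4 : x < β := hx.2.trans_le m2.2
      exact ((hw' x ⟨m3.le, m4.le⟩).hasDerivAt (Icc_mem_nhds m3 m4)).hasDerivWithinAt
  · rw [← Real.norm_eq_abs]
    refine (intervalIntegral.norm_integral_le_of_norm_le_const (C := M)
      fun x hx => hM x (hs' (uIoc_subset_uIcc hx))).trans ?_
    exact mul_le_mul_of_nonneg_left hd hM0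

lemma piece {e a b p₀ : E3} (he : ‖e‖ = 1) (ha : inner ℝ a e = 0) (hb : inner ℝ b e = 0)
    (hab : LinearIndependent ℝ ![a, b]) {L : ℝ} (hL : 0 < L) {α β : ℝ}
    {R : ℝ → ℝ} (hR0 : ∀ t ∈ Icc α β, 0 ≤ R t)
    {w : ℝ → E3} (hw : ∀ t ∈ Icc α β, inner ℝ (w t) e = 0)
    {lam : ℝ → ℝ} (hlam : ContinuousOn lam (Icc α β))
    (hw' : ∀ t ∈ Icc α β, HasDerivWithinAt w (lam t • (a + t • b)) (Icc α β) t)
    {M : ℝ} (hM : ∀ t ∈ Icc α β, |lam t| ≤ M) {t₀ t₁ c ω : ℝ} (h0 : α ≤ t₀) (h01 : t₀ < t₁)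
    (h1 : t₁ ≤ β) (hc : c ∈ Icc t₀ t₁) (hω : ∀ τ ∈ Icc t₀ t₁, |R τ - R c| ≤ ω) :
    ∃ p q r : E3, (inner ℝ p (e + w c) = 0 ∧ inner ℝ q (e + w c) = 0 ∧ inner ℝ r (e + w c) = 0) ∧
      AffineIndependent ℝ ![p, q, r] ∧
      (∀ τ ∈ Icc t₀ t₁, ∀ ρ ∈ Icc 0 (R τ), ∀ s : ℝ, |s| ≤ L →
        ∃ y ∈ convexHull ℝ ({p, q, r} : Set E3), ∃ σ : ℝ,
          p₀ + ρ • (a + τ • b) + s • (e + w τ) = y + σ • (e + w c)) ∧
      (μHE[2] (convexHull ℝ ({p, q, r} : Set E3))).toReal =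
        (R c + ω + (3 * L * M + 2) * (t₁ - t₀)) ^ 2 * (t₁ - t₀) * gram a b /
          (2 * √(1 + ‖w c‖ ^ 2)) ∧
      (μHE[2] (proj (e + w c) '' {x : E3 | ∃ τ ∈ Icc t₀ t₁, ∃ ρ ∈ Icc 0 (R τ), ∃ s : ℝ, |s| ≤ L ∧
          x = p₀ + ρ • (a + τ • b) + s • (e + w τ)})).toReal ≤
        (μHE[2] (convexHull ℝ ({p, q, r} : Set E3))).toReal ∧
      (max (R c - ω) 0) ^ 2 * (t₁ - t₀) * gram a b / (2 * √(1 + ‖w c‖ ^ 2)) ≤
        (μHE[2] (proj (e + w c) '' {x : E3 | ∃ τ ∈ Icc t₀ t₁, ∃ ρ ∈ Icc 0 (R τ), ∃ s : ℝ,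
          |s| ≤ L ∧ x = p₀ + ρ • (a + τ • b) + s • (e + w τ)})).toReal := by
  have hcm : c ∈ Icc α β := ⟨h0.trans hc.1, hc.2.trans h1⟩
  obtain ⟨hu, hg⟩ := gram_proj_sweep he ha hb (hw c hcm)
  have hM0 : 0 ≤ M := (abs_nonneg _).trans (hM c hcm)
  have hω0 : 0 ≤ ω := (abs_nonneg _).trans (hω c hc)
  have hRc := hR0 c hcm
  obtain ⟨Δ, hΔ⟩ : ∃ Δ, Δ = t₁ - t₀ := ⟨_, rfl⟩
  have hΔ0 : 0 < Δ := by linarith
  obtain ⟨G, hG⟩ : ∃ G, G = R c + ω + (3 * L * M + 2) * Δ := ⟨_, rfl⟩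
  have hG0 : 0 < G := by rw [hG]; positivity
  rw [← hΔ, ← hG]
  obtain ⟨u, hu'⟩ : ∃ u, u = e + w c := ⟨_, rfl⟩
  rw [← hu'] at hu hg ⊢
  obtain ⟨K, hK⟩ : ∃ K, K = L * M + 1 := ⟨_, rfl⟩
  have hgl : ∀ x : ℝ, gram (proj u (x • (a + t₀ • b))) (proj u (x • (a + t₁ • b))) =
      x ^ 2 * Δ * gram a b / √(1 + ‖w c‖ ^ 2) := by
    intro x
    have e1 : ∀ t : ℝ, proj u (x • (a + t • b)) = x • proj u a + (x * t) • proj u b := fun t => by
      rw [proj_smul, proj_add, proj_smul, smul_add, smul_smul]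
    rw [e1, e1, gram_lin, hg, show x * (x * t₁) - x * t₀ * x = x ^ 2 * Δ by rw [hΔ]; ring,
      abs_of_nonneg (by positivity)]
    ring
  let P : E3 := p₀ + (-2 * K * Δ) • a + (t₀ * (-2 * K * Δ) - K * Δ ^ 2) • b
  have hcov : ∀ τ ∈ Icc t₀ t₁, ∀ ρ ∈ Icc 0 (R τ), ∀ s : ℝ, |s| ≤ L →
      proj u (p₀ + ρ • (a + τ • b) + s • (e + w τ)) ∈
        convexHull ℝ ({proj u P, proj u P + proj u (G • (a + t₀ • b)),
          proj u P + proj u (G • (a + t₁ • b))} : Set E3) := by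
    intro τ hτ ρ hρ s hs
    obtain ⟨Λ₀, Λ₁, hΛ, b0, b1, b2⟩ := w_diff hlam hw' hM h0 h1 hc hτ
    rw [← hΔ] at b0 b1 b2
    have c0 : |s * Λ₀| ≤ L * (M * Δ) := by rw [abs_mul]; gcongr
    have c1 : |s * (Λ₁ - t₀ * Λ₀)| ≤ L * (M * Δ ^ 2) := by rw [abs_mul]; gcongr
    have c2 : |s * (Λ₁ - t₁ * Λ₀)| ≤ L * (M * Δ ^ 2) := by rw [abs_mul]; gcongr
    rw [convexHull_triangle, add_sub_cancel_left, add_sub_cancel_left, ← proj_plane]
    have e1 : e + w τ = u + (Λ₀ • a + Λ₁ • b) := by rw [← hΛ, hu']; abel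
    have e2 : proj u (p₀ + ρ • (a + τ • b) + s • (e + w τ)) =
        proj u (p₀ + (ρ + s * Λ₀) • a + (ρ * τ + s * Λ₁) • b) := by
      rw [e1, show p₀ + ρ • (a + τ • b) + s • (u + (Λ₀ • a + Λ₁ • b)) =
        p₀ + (ρ + s * Λ₀) • a + (ρ * τ + s * Λ₁) • b + s • u by module, proj_add _ _ (s • u),
        proj_smul u s u, proj_self hu, smul_zero, add_zero]
    rw [e2]
    refine mem_image_of_mem _ (mem_plane.mpr
      ⟨(t₁ * (ρ + s * Λ₀) - (ρ * τ + s * Λ₁) + K * Δ ^ 2) / (G * Δ),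
        ((ρ * τ + s * Λ₁) - t₀ * (ρ + s * Λ₀) + K * Δ ^ 2) / (G * Δ), ⟨?_, ?_, ?_⟩, ?_⟩)
    · refine div_nonneg ?_ (by positivity)
      have := mul_nonneg hρ.1 (sub_nonneg.mpr hτ.2)
      rw [hK]
      nlinarith [(abs_le.mp c2).2, sq_nonneg Δ]
    · refine div_nonneg ?_ (by positivity)
      have := mul_nonneg hρ.1 (sub_nonneg.mpr hτ.1)
      rw [hK]
      nlinarith [(abs_le.mp c1).1, sq_nonneg Δ]
    · simp only
      rw [← add_div, div_le_one (by positivity)]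
      have d1 : ρ + s * Λ₀ + 2 * K * Δ ≤ G := by
        rw [hG, hK]
        linarith [(abs_le.mp c0).2, hρ.2, (abs_le.mp (hω τ hτ)).2]
      calc _ = (ρ + s * Λ₀ + 2 * K * Δ) * Δ := by rw [hΔ]; ring
        _ ≤ _ := by gcongr
    · obtain rfl : t₁ = t₀ + Δ := by linarith
      simp only [P]
      match_scalars
      · ring
      · field_simp; ring
      · field_simp; ring
  have harea := area_triangle (proj u P) (proj u P + proj u (G • (a + t₀ • b)))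
    (proj u P + proj u (G • (a + t₁ • b)))
  have hsub : proj u '' {x : E3 | ∃ τ ∈ Icc t₀ t₁, ∃ ρ ∈ Icc 0 (R τ), ∃ s : ℝ, |s| ≤ L ∧
      x = p₀ + ρ • (a + τ • b) + s • (e + w τ)} ⊆
      convexHull ℝ ({proj u P, proj u P + proj u (G • (a + t₀ • b)),
          proj u P + proj u (G • (a + t₁ • b))} : Set E3) := by
    rintro _ ⟨_, ⟨τ, hτ, ρ, hρ, s, hs, rfl⟩, rfl⟩
    exact hcov τ hτ ρ hρ s hs
  refine ⟨proj u P, proj u P + proj u (G • (a + t₀ • b)), proj u P + proj u (G • (a + t₁ • b)),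
    ⟨inner_proj hu _, ?_, ?_⟩, affInd_of_gram ?_, fun τ hτ ρ hρ s hs => ?_, ?_, ?_, ?_⟩
  · rw [← proj_add, inner_proj hu]
  · rw [← proj_add, inner_proj hu]
  · rw [add_sub_cancel_left, add_sub_cancel_left, hgl]
    have := gram_pos hab
    positivity
  · exact ⟨_, hcov τ hτ ρ hρ s hs, _, (sub_add_cancel _ _).symm⟩
  · rw [area_triangle_toReal, add_sub_cancel_left, add_sub_cancel_left, hgl]
    ring
  · exact ENNReal.toReal_mono (by rw [harea]; simp) (measure_mono hsub)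
  · have h5 : proj u '' plane p₀ ((max (R c - ω) 0) • (a + t₀ • b))
        ((max (R c - ω) 0) • (a + t₁ • b)) stdTri ⊆
        proj u '' {x : E3 | ∃ τ ∈ Icc t₀ t₁, ∃ ρ ∈ Icc 0 (R τ), ∃ s : ℝ, |s| ≤ L ∧
          x = p₀ + ρ • (a + τ • b) + s • (e + w τ)} := by
      refine image_mono fun x hx => ?_
      obtain ⟨σ₁, σ₂, ⟨s1, s2, s3⟩, rfl⟩ := mem_plane.mp hx
      simp only at s1 s2 s3
      obtain ⟨τ, hτ, hτ'⟩ : ∃ τ ∈ Icc t₀ t₁, (σ₁ + σ₂) * τ = σ₁ * t₀ + σ₂ * t₁ := by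
        rcases (add_nonneg s1 s2).eq_or_lt with h | h
        · obtain rfl : σ₁ = 0 := by linarith
          obtain rfl : σ₂ = 0 := by linarith
          exact ⟨t₀, ⟨le_rfl, h01.le⟩, by simp⟩
        · refine ⟨(σ₁ * t₀ + σ₂ * t₁) / (σ₁ + σ₂), ⟨?_, ?_⟩, by field_simp⟩
          · rw [le_div_iff₀ h]; nlinarith
          · rw [div_le_iff₀ h]; nlinarith
      have hmax : max (R c - ω) 0 ≤ R τ :=
        max_le (by linarith [(abs_le.mp (hω τ hτ)).1]) (hR0 τ ⟨h0.trans hτ.1, hτ.2.trans h1⟩)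
      have hm0 : 0 ≤ max (R c - ω) 0 := le_max_right _ _
      refine ⟨τ, hτ, max (R c - ω) 0 * (σ₁ + σ₂), ⟨by positivity, by nlinarith⟩, 0,
        by simpa using hL.le, ?_⟩
      match_scalars
      · ring
      · ring
      · linear_combination (-max (R c - ω) 0) * hτ'
      · ring
      · ring
    refine le_trans (le_of_eq ?_) (ENNReal.toReal_mono
      (ne_top_of_le_ne_top (by rw [harea]; simp) (measure_mono hsub)) (measure_mono h5))
    rw [proj_plane, area_plane_toReal, hgl, volume_stdTri, ENNReal.toReal_ofReal (by norm_num)]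
    ring

lemma area_close {G R ω Rm Δ κ N : ℝ} (h1 : |G - R| ≤ ω) (h2 : 0 ≤ R) (h3 : R ≤ Rm)
    (hΔ : 0 ≤ Δ) (hκ : 0 ≤ κ) (hN : 1 ≤ N) (hω : ω ≤ 1) :
    |G ^ 2 * Δ * κ / (2 * N) - κ * (R ^ 2 / (2 * N) * Δ)| ≤ ω * (κ * (Rm + 1)) * Δ := by
  have h4 : |G ^ 2 - R ^ 2| ≤ ω * (2 * (Rm + 1)) := by
    rw [show G ^ 2 - R ^ 2 = (G - R) * (G + R) by ring, abs_mul]
    refine mul_le_mul h1 (abs_le.mpr ⟨?_, ?_⟩) (abs_nonneg _) ((abs_nonneg _).trans h1)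
    · linarith [(abs_le.mp h1).1]
    · linarith [(abs_le.mp h1).2]
  have hN0 : 0 < N := by linarith
  rw [show G ^ 2 * Δ * κ / (2 * N) - κ * (R ^ 2 / (2 * N) * Δ) =
    (G ^ 2 - R ^ 2) * (Δ * κ / (2 * N)) by ring, abs_mul,
    abs_of_nonneg (a := Δ * κ / (2 * N)) (by positivity)]
  have h5 : Δ * κ / (2 * N) ≤ Δ * κ / 2 :=
    div_le_div_of_nonneg_left (by positivity) (by norm_num) (by linarith)
  calc _ ≤ ω * (2 * (Rm + 1)) * (Δ * κ / 2) :=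
        mul_le_mul h4 h5 (by positivity) ((abs_nonneg _).trans h4)
    _ = _ := by ring

theorem s0328
    (e a b p₀ : E3) (he : ‖e‖ = 1)
    (ha : inner ℝ a e = 0) (hb : inner ℝ b e = 0)
    (hab : LinearIndependent ℝ ![a, b]) (L : ℝ) (hL : 0 < L) (α β : ℝ) (hαβ : α < β)
    (R : ℝ → ℝ) (hR : ContinuousOn R (Set.Icc α β)) (hR0 : ∀ t ∈ Set.Icc α β, 0 ≤ R t)
    (w : ℝ → E3) (hw : ∀ t ∈ Set.Icc α β, inner ℝ (w t) e = 0)
    (lam : ℝ → ℝ) (hlam : ContinuousOn lam (Set.Icc α β))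
    (hw' : ∀ t ∈ Set.Icc α β, HasDerivWithinAt w (lam t • (a + t • b)) (Set.Icc α β) t)
    (η : ℝ) (hη : 0 < η) :
    ∃ δ : ℝ, 0 < δ ∧ ∀ (N : ℕ) (t : Fin (N + 1) → ℝ) (c : Fin N → ℝ),
      StrictMono t → t 0 = α → t (Fin.last N) = β →
      (∀ i : Fin N, t i.succ - t i.castSucc ≤ δ) →
      (∀ i : Fin N, t i.castSucc ≤ c i ∧ c i ≤ t i.succ) →
      (∃ (p q r : Fin N → E3),
        (∀ i, inner ℝ (p i) (e + w (c i)) = 0 ∧ inner ℝ (q i) (e + w (c i)) = 0 ∧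
          inner ℝ (r i) (e + w (c i)) = 0) ∧
        (∀ i, AffineIndependent ℝ ![p i, q i, r i]) ∧
        {x : E3 | ∃ τ ∈ Set.Icc α β, ∃ ρ ∈ Set.Icc 0 (R τ), ∃ s : ℝ, abs s ≤ L ∧
            x = p₀ + ρ • (a + τ • b) + s • (e + w τ)} ⊆
          ⋃ i, {x : E3 | ∃ y ∈ convexHull ℝ {p i, q i, r i}, ∃ σ : ℝ,
            x = y + σ • (e + w (c i))} ∧
        abs ((∑ i, (μHE[2] (convexHull ℝ ({p i, q i, r i} : Set E3))).toReal) -
            gram a b * ∫ τ in α..β, R τ ^ 2 / (2 * Real.sqrt (1 + ‖w τ‖ ^ 2))) ≤ η) ∧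
      abs ((∑ i : Fin N, (μHE[2] (proj (e + w (c i)) ''
            {x : E3 | ∃ τ ∈ Set.Icc (t i.castSucc) (t i.succ), ∃ ρ ∈ Set.Icc 0 (R τ),
              ∃ s : ℝ, abs s ≤ L ∧ x = p₀ + ρ • (a + τ • b) + s • (e + w τ)})).toReal) -
          gram a b * ∫ τ in α..β, R τ ^ 2 / (2 * Real.sqrt (1 + ‖w τ‖ ^ 2))) ≤ η := by
  obtain ⟨M, hM⟩ := isCompact_Icc.exists_bound_of_continuousOn hlam
  obtain ⟨Rm, hRm⟩ := isCompact_Icc.exists_bound_of_continuousOn hR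
  have hα : α ∈ Icc α β := ⟨le_rfl, hαβ.le⟩
  have hM0 : 0 ≤ M := (norm_nonneg _).trans (hM α hα)
  have hRm0 : 0 ≤ Rm := (norm_nonneg _).trans (hRm α hα)
  have hκ := gram_pos hab
  have hβα : 0 < β - α := sub_pos.mpr hαβ
  have hwc : ContinuousOn w (Icc α β) := fun x hx => (hw' x hx).continuousWithinAt
  have hf : ContinuousOn (fun τ => R τ ^ 2 / (2 * √(1 + ‖w τ‖ ^ 2))) (Icc α β) :=
    (hR.pow 2).div (continuousOn_const.mul (continuousOn_const.add (hwc.norm.pow 2)).sqrt)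
      fun x _ => by positivity
  obtain ⟨δ₁, hδ₁, h1⟩ := riemann_sum hf (η := η / (2 * gram a b * (β - α))) (by positivity)
  obtain ⟨ω, hω, hω1, hω2⟩ : ∃ ω : ℝ, 0 < ω ∧ ω ≤ 1 ∧
      ω * (gram a b * (Rm + 1)) * (β - α) ≤ η / 2 :=
    ⟨min 1 (η / 2 / (gram a b * (Rm + 1) * (β - α))), by positivity, min_le_left _ _, by
      rw [mul_assoc, ← le_div_iff₀ (by positivity)]; exact min_le_right _ _⟩
  obtain ⟨δ₂, hδ₂, h2⟩ := Metric.uniformContinuousOn_iff_le.mp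
    (isCompact_Icc.uniformContinuousOn_of_continuous hR) (ω / 2) (by positivity)
  refine ⟨min (min δ₁ δ₂) (ω / 2 / (3 * L * M + 2)), by positivity,
    fun N t c ht h0 hN hm hc => ?_⟩
  have hm1 : ∀ i : Fin N, t i.succ - t i.castSucc ≤ δ₁ := fun i =>
    (hm i).trans ((min_le_left _ _).trans (min_le_left _ _))
  have hm2 : ∀ i : Fin N, t i.succ - t i.castSucc ≤ δ₂ := fun i =>
    (hm i).trans ((min_le_left _ _).trans (min_le_right _ _))
  have hm3 : ∀ i : Fin N, (3 * L * M + 2) * (t i.succ - t i.castSucc) ≤ ω / 2 := fun i => by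
    have := (hm i).trans (min_le_right _ _)
    rw [le_div_iff₀ (by positivity)] at this
    linarith
  have hmem : ∀ i, t i ∈ Icc α β := fun i =>
    ⟨h0 ▸ ht.monotone (Fin.zero_le _), hN ▸ ht.monotone (Fin.le_last _)⟩
  have hlt : ∀ i : Fin N, t i.castSucc < t i.succ := fun i => ht Fin.castSucc_lt_succ
  have hcm : ∀ i, c i ∈ Icc α β := fun i =>
    ⟨(hmem _).1.trans (hc i).1, (hc i).2.trans (hmem _).2⟩
  have hp := fun i : Fin N => piece (p₀ := p₀) he ha hb hab hL hR0 hw hlam hw' hM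
    (ω := ω / 2) (hmem i.castSucc).1 (hlt i) (hmem i.succ).2 (hc i) (fun τ hτ =>
      h2 τ ⟨(hmem _).1.trans hτ.1, hτ.2.trans (hmem _).2⟩ _ (hcm i) (by
        rw [Real.dist_eq]
        exact abs_le.mpr ⟨by linarith [hm2 i, (hc i).2, hτ.1], by linarith [hm2 i, (hc i).1, hτ.2]⟩))
  choose p q r k1 k2 k3 k4 k5 k6 using hp
  have hR' := h1 N t c ht h0 hN hm1 hc
  have hN1 : ∀ i, 1 ≤ √(1 + ‖w (c i)‖ ^ 2) := fun i =>
    Real.one_le_sqrt.mpr (by nlinarith [sq_nonneg ‖w (c i)‖])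
  have hRc : ∀ i, R (c i) ≤ Rm := fun i => (le_abs_self _).trans (hRm _ (hcm i))
  have up : ∀ i : Fin N, _ := fun i => area_close
    (G := R (c i) + ω / 2 + (3 * L * M + 2) * (t i.succ - t i.castSucc)) (ω := ω)
    (abs_le.mpr ⟨by nlinarith [mul_nonneg hL.le hM0, hlt i], by linarith [hm3 i]⟩)
    (hR0 _ (hcm i)) (hRc i) (sub_nonneg.mpr (hlt i).le) hκ.le (hN1 i) hω1
  have lo : ∀ i : Fin N, _ := fun i => area_close (G := max (R (c i) - ω / 2) 0) (ω := ω)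
    (abs_le.mpr ⟨by linarith [le_max_left (R (c i) - ω / 2) 0], by
      have := max_le (a := R (c i) - ω / 2) (c := R (c i)) (by linarith) (hR0 _ (hcm i))
      linarith⟩)
    (hR0 _ (hcm i)) (hRc i) (sub_nonneg.mpr (hlt i).le) hκ.le (hN1 i) hω1
  have fin : ∀ A : Fin N → ℝ, (∀ i, |A i - gram a b * (R (c i) ^ 2 / (2 * √(1 + ‖w (c i)‖ ^ 2)) *
      (t i.succ - t i.castSucc))| ≤ ω * (gram a b * (Rm + 1)) * (t i.succ - t i.castSucc)) →
      |∑ i, A i - gram a b * ∫ τ in α..β, R τ ^ 2 / (2 * √(1 + ‖w τ‖ ^ 2))| ≤ η := by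
    intro A hA
    have a1 : |∑ i, A i - gram a b * ∑ i : Fin N, R (c i) ^ 2 / (2 * √(1 + ‖w (c i)‖ ^ 2)) *
        (t i.succ - t i.castSucc)| ≤ η / 2 := by
      rw [Finset.mul_sum, ← Finset.sum_sub_distrib]
      refine (Finset.abs_sum_le_sum_abs _ _).trans ((Finset.sum_le_sum fun i _ => hA i).trans ?_)
      rw [← Finset.mul_sum, telescope, h0, hN]
      exact hω2
    have a2 := mul_le_mul_of_nonneg_left hR' hκ.le
    rw [← abs_of_pos hκ, ← abs_mul, abs_of_pos hκ, mul_sub,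
      show gram a b * (η / (2 * gram a b * (β - α)) * (β - α)) = η / 2 by field_simp] at a2
    exact abs_le.mpr ⟨by linarith [(abs_le.mp a1).1, (abs_le.mp a2).1],
      by linarith [(abs_le.mp a1).2, (abs_le.mp a2).2]⟩
  refine ⟨⟨p, q, r, k1, k2, ?_, fin _ fun i => ?_⟩, fin _ fun i => ?_⟩
  · rintro _ ⟨τ, hτ, ρ, hρ, s, hs, rfl⟩
    obtain ⟨i, hi⟩ := exists_piece t (τ := τ) (h0 ▸ hτ.1) (hN ▸ hτ.2) (by rw [h0, hN]; exact hαβ)
    exact mem_iUnion.mpr ⟨i, k3 i τ hi ρ hρ s hs⟩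
  · rw [k4 i]; exact up i
  · have := k5 i
    rw [k4 i] at this
    exact abs_le.mpr ⟨by linarith [(abs_le.mp (lo i)).1, k6 i], by linarith [(abs_le.mp (up i)).2]⟩

end Crest.Agent.R211
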