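import Mathlib

/-!
The real inequalities behind the improved cylinder covering of the regular tetrahedron.
-/

set_option autoImplicit false

namespace Crest.Agent.R211

/-- number of sectors -/
def NN : ℕ := 1000000

/-- sector boundaries -/
noncomputable def tt (i : ℕ) : ℝ := -1 + i * (1 / 500000)

/-- sector midpoints -/
noncomputable def mm (i : ℕ) : ℝ := tt i + 1 / 1000000

/-- transversal velocity -/
noncomputable def pp (m : ℝ) : ℝ := (1 - (1 / 1000000) ^ 2 + m ^ 2) / 2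

/-- cap height -/
noncomputable def RR (m : ℝ) : ℝ :=
  1 / 2 + ((1 / 100) ^ 2 * (51 / 50) * (m ^ 2 + m ^ 4) / 4 + 1 / 100 * (1 / 500000))

lemma tt_succ (i : ℕ) : tt (i + 1) = tt i + 1 / 500000 := by
  simp only [tt]; push_cast; ring

lemma tt_zero : tt 0 = -1 := by simp [tt]

lemma tt_NN : tt NN = 1 := by simp only [tt, NN]; norm_num

lemma mm_sq_le {i : ℕ} (hi : i < NN) : mm i ^ 2 ≤ 1 := by
  have h1 : (i : ℝ) + 1 ≤ 1000000 := by exact_mod_cast hi
  have h0 : (0 : ℝ) ≤ i := Nat.cast_nonneg i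
  have : |mm i| ≤ 1 := by
    rw [abs_le]; simp only [mm, tt]; constructor <;> linarith
  exact (sq_le_one_iff_abs_le_one _).mpr this

lemma discrete_ivt (φ : ℕ → ℝ) (h0 : 0 ≤ φ 0) :
    ∀ n : ℕ, φ (n + 1) ≤ 0 → ∃ i < n + 1, 0 ≤ φ i ∧ φ (i + 1) ≤ 0 := by
  intro n
  induction n with
  | zero => exact fun h => ⟨0, by norm_num, h0, h⟩
  | succ n ih =>
    intro h
    by_cases h1 : φ (n + 1) ≤ 0
    · obtain ⟨i, hi, h2⟩ := ih h1
      exact ⟨i, by omega, h2⟩
    · exact ⟨n + 1, by omega, (not_le.mp h1).le, h⟩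

lemma exists_sector (l x y z : ℝ) (h : |y| ≤ z) : ∃ i < NN,
    tt i * (z - x * (l * mm i)) ≤ y - x * (l * pp (mm i)) ∧
    y - x * (l * pp (mm i)) ≤ tt (i + 1) * (z - x * (l * mm i)) := by
  have h' := abs_le.mp h
  obtain ⟨i, hi, h1, h2⟩ := discrete_ivt (fun i => y - tt i * z - l * x * (1 - tt i ^ 2) / 2)
    (by simp only [tt_zero]; linarith [h'.1]) 999999
    (by rw [show 999999 + 1 = NN from rfl, tt_NN]; linarith [h'.2])
  refine ⟨i, hi, ?_, ?_⟩
  · simp only [pp, mm]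
    nlinarith
  · simp only [pp, mm]
    rw [tt_succ] at h2 ⊢
    nlinarith

lemma cap_lemma {m n x y A B : ℝ} (hm : m ^ 2 ≤ 1) (hn : n ^ 2 ≤ 1)
    (hAB : A + B = 1 + 1 / 100 * (y * n - x * m))
    (h1 : |y - x * (1 / 100 * pp m) - m * A| ≤ 1 / 1000000 * A)
    (h2 : |x + y * (1 / 100 * pp n) - n * B| ≤ 1 / 1000000 * B) : A ≤ RR m ∨ B ≤ RR n := by
  by_contra hc
  push Not at hc
  obtain ⟨hA, hB⟩ := hc
  set p := 1 / 100 * pp m with hp
  set p' := 1 / 100 * pp n with hp'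
  have hp0 : 0 ≤ p := by simp only [hp, pp]; nlinarith [sq_nonneg m]
  have hp0' : 0 ≤ p' := by simp only [hp', pp]; nlinarith [sq_nonneg n]
  have hp1 : p ≤ (1 + m ^ 2) / 200 := by simp only [hp, pp]; nlinarith
  have hp1' : p' ≤ (1 + n ^ 2) / 200 := by simp only [hp', pp]; nlinarith
  have hp2 : p ≤ 1 / 100 := by linarith
  have hp2' : p' ≤ 1 / 100 := by linarith
  set e1 := y - x * p - m * A with he1
  set e2 := x + y * p' - n * B with he2
  set a := A - 1 / 2 with ha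
  set b := B - 1 / 2 with hb
  have hm4 : 0 ≤ m ^ 2 + m ^ 4 := by positivity
  have hn4 : 0 ≤ n ^ 2 + n ^ 4 := by positivity
  simp only [RR] at hA hB
  have ha0 : 0 < a := by linarith
  have hb0 : 0 < b := by linarith
  have key : (1 + p * p') * (a + b) = 1 / 100 * (m * n * (a - b) + n ^ 2 * p * (1 / 2 + b)
      + m ^ 2 * p' * (1 / 2 + a) + (n + m * p') * e1 + (n * p - m) * e2) := by
    have : a + b = 1 / 100 * (y * n - x * m) := by linarith
    rw [this, he1, he2, ha, hb]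
    ring
  have hma : |m| ≤ 1 := (sq_le_one_iff_abs_le_one _).mp hm
  have hna : |n| ≤ 1 := (sq_le_one_iff_abs_le_one _).mp hn
  have b1 : m * n * (a - b) ≤ a + b := by
    have : |m * n * (a - b)| ≤ 1 * 1 * (a + b) := by
      rw [abs_mul, abs_mul]
      gcongr
      rw [abs_le]; constructor <;> linarith
    linarith [le_abs_self (m * n * (a - b))]
  have b2 : n ^ 2 * p * b ≤ 1 * (1 / 100) * b := by gcongr
  have b3 : m ^ 2 * p' * a ≤ 1 * (1 / 100) * a := by gcongr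
  have b4 : (n + m * p') * e1 ≤ 101 / 100 * (1 / 1000000 * A) := by
    have : |n + m * p'| ≤ 101 / 100 := by
      have : |m * p'| ≤ 1 * (1 / 100) := by
        rw [abs_mul, abs_of_nonneg hp0']; gcongr
      linarith [abs_add_le n (m * p')]
    refine (le_abs_self _).trans ?_
    rw [abs_mul]
    gcongr
  have b5 : (n * p - m) * e2 ≤ 101 / 100 * (1 / 1000000 * B) := by
    have : |n * p - m| ≤ 101 / 100 := by
      have : |n * p| ≤ 1 * (1 / 100) := by
        rw [abs_mul, abs_of_nonneg hp0]; gcongr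
      linarith [abs_sub (n * p) m]
    refine (le_abs_self _).trans ?_
    rw [abs_mul]
    gcongr
  have b6 : n ^ 2 * p ≤ n ^ 2 * ((1 + m ^ 2) / 200) := by gcongr
  have b7 : m ^ 2 * p' ≤ m ^ 2 * ((1 + n ^ 2) / 200) := by gcongr
  have b8 : n ^ 2 * ((1 + m ^ 2) / 200) + m ^ 2 * ((1 + n ^ 2) / 200)
      ≤ ((m ^ 2 + m ^ 4) + (n ^ 2 + n ^ 4)) / 200 := by nlinarith [sq_nonneg (m ^ 2 - n ^ 2)]
  have b9 : 0 ≤ p * p' * (a + b) := by positivity
  have e3 : n ^ 2 * p * (1 / 2 + b) = n ^ 2 * p / 2 + n ^ 2 * p * b := by ring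
  have e4 : m ^ 2 * p' * (1 / 2 + a) = m ^ 2 * p' / 2 + m ^ 2 * p' * a := by ring
  have e5 : (1 + p * p') * (a + b) = (a + b) + p * p' * (a + b) := by ring
  rw [e3, e4, e5] at key
  linarith

/-- Each point of the tetrahedron lies in a lower or an upper cylinder. -/
theorem cover_real {x y z : ℝ} (hx : |x| ≤ 1 - z) (hy : |y| ≤ z) :
    (∃ i < NN, tt i * (z - x * (1 / 100 * mm i)) ≤ y - x * (1 / 100 * pp (mm i)) ∧
      y - x * (1 / 100 * pp (mm i)) ≤ tt (i + 1) * (z - x * (1 / 100 * mm i)) ∧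
      z - x * (1 / 100 * mm i) ≤ RR (mm i)) ∨
    (∃ j < NN, tt j * (1 - z + y * (1 / 100 * mm j)) ≤ x + y * (1 / 100 * pp (mm j)) ∧
      x + y * (1 / 100 * pp (mm j)) ≤ tt (j + 1) * (1 - z + y * (1 / 100 * mm j)) ∧
      1 - z + y * (1 / 100 * mm j) ≤ RR (mm j)) := by
  obtain ⟨i, hi, h1, h2⟩ := exists_sector (1 / 100) x y z hy
  obtain ⟨j, hj, h3, h4⟩ := exists_sector (-(1 / 100)) y x (1 - z) hx
  have e1 : 1 - z - y * (-(1 / 100) * mm j) = 1 - z + y * (1 / 100 * mm j) := by ring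
  have e2 : x - y * (-(1 / 100) * pp (mm j)) = x + y * (1 / 100 * pp (mm j)) := by ring
  rw [e1, e2] at h3 h4
  have := cap_lemma (m := mm i) (n := mm j) (x := x) (y := y) (A := z - x * (1 / 100 * mm i))
    (B := 1 - z + y * (1 / 100 * mm j)) (mm_sq_le hi) (mm_sq_le hj) (by ring)
    (by
      rw [tt_succ] at h2
      rw [abs_le]
      have : tt i = mm i - 1 / 1000000 := by simp [mm]
      rw [this] at h1 h2
      constructor <;> linarith)
    (by
      rw [tt_succ] at h4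
      rw [abs_le]
      have : tt j = mm j - 1 / 1000000 := by simp [mm]
      rw [this] at h3 h4
      constructor <;> linarith)
  rcases this with h | h
  · exact Or.inl ⟨i, hi, h1, h2, h⟩
  · exact Or.inr ⟨j, hj, h3, h4, h⟩

lemma RR_pos (m : ℝ) : 0 < RR m := by simp only [RR]; positivity

/-- normalised area of one sector -/
noncomputable def hh (m : ℝ) : ℝ :=
  RR m ^ 2 / √(1 + (1 / 100 * pp m) ^ 2 + 2 * (1 / 100 * m) ^ 2)

lemma hh_le {m : ℝ} (hm : m ^ 2 ≤ 1) :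
    hh m ≤ 1 / 4 + (1 / 100) ^ 2 * (-(31 / 1000) - 56 / 1000 * m ^ 2 + 224 / 1000 * m ^ 4)
      + 2 / 100 * (1 / 500000) := by
  set W := (1 / 100 * pp m) ^ 2 + 2 * (1 / 100 * m) ^ 2 with hW
  have hm0 := sq_nonneg m
  have hm4 : m ^ 4 ≤ 1 := by nlinarith
  have hm40 : 0 ≤ m ^ 4 := by positivity
  have hW0 : 0 ≤ W := by positivity
  have hWe : W = (1 / 100) ^ 2 * ((1 - (1 / 1000000) ^ 2) ^ 2 / 4
      + (1 - (1 / 1000000) ^ 2) * m ^ 2 / 2 + m ^ 4 / 4 + 2 * m ^ 2) := by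
    simp only [hW, pp]; ring
  have hW1 : W ≤ 1 / 1000 := by rw [hWe]; nlinarith
  have h1 : 1 / √(1 + W) ≤ 1 - 499 / 1000 * W := by
    rw [div_le_iff₀ (by positivity), ← div_le_iff₀' (by linarith)]
    apply Real.le_sqrt_of_sq_le
    rw [div_pow, div_le_iff₀ (by nlinarith)]
    nlinarith [mul_nonneg hW0 (sub_nonneg.mpr hW1), sq_nonneg W, mul_nonneg hW0 (sq_nonneg W)]
  have h2 : hh m = RR m ^ 2 * (1 / √(1 + W)) := by
    simp only [hh, hW, add_assoc]; ring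
  rw [h2]
  refine (mul_le_mul_of_nonneg_left h1 (sq_nonneg _)).trans ?_
  set ρ := (1 / 100) ^ 2 * (51 / 50) * (m ^ 2 + m ^ 4) / 4 + 1 / 100 * (1 / 500000 : ℝ) with hρ
  have hR : RR m = 1 / 2 + ρ := rfl
  have hρ0 : 0 ≤ ρ := by positivity
  have hρ1 : ρ ≤ 1 / 10000 := by rw [hρ]; nlinarith
  have h3 : (1 / 2 + ρ) ^ 2 * (1 - 499 / 1000 * W)
      ≤ 1 / 4 + 10001 / 10000 * ρ - 499 / 4000 * W := by
    nlinarith [mul_nonneg hρ0 hW0, mul_nonneg (mul_nonneg hρ0 hρ0) hW0,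
      mul_nonneg hρ0 (sub_nonneg.mpr hρ1)]
  rw [hR]
  refine h3.trans ?_
  rw [hWe, hρ]
  nlinarith

theorem sum_hh_le : ∑ i ∈ Finset.range NN, 1 / 500000 * hh (mm i) ≤ 1 / 2 - 1 / 2000000 := by
  let G : ℝ → ℝ := fun t => (1 / 4 - (1 / 100) ^ 2 * (31 / 1000) + 3 / 100 * (1 / 500000)) * t
    - (1 / 100) ^ 2 * (56 / 1000) * t ^ 3 / 3 + (1 / 100) ^ 2 * (224 / 1000) * t ^ 5 / 5
  have h1 : ∀ i ∈ Finset.range NN, 1 / 500000 * hh (mm i) ≤ G (tt (i + 1)) - G (tt i) := by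
    intro i hi
    have h2 := hh_le (mm_sq_le (Finset.mem_range.mp hi))
    have e1 : tt i = mm i - 1 / 1000000 := by simp [mm]
    have e2 : tt (i + 1) = mm i + 1 / 1000000 := by rw [tt_succ, e1]; ring
    rw [e1, e2]
    simp only [G]
    nlinarith [sq_nonneg (mm i)]
  refine (Finset.sum_le_sum h1).trans ?_
  rw [Finset.sum_range_sub (fun i => G (tt i)), tt_NN, tt_zero]
  simp only [G]
  norm_num

end Crest.Agent.R211
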