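import Mathlib
import Crest.Agent.R211.Area
import Crest.Agent.R211.TetReal

/-!
The improved covering of the standard regular tetrahedron by triangular cylinders, and the
minimal projection area.
-/

set_option autoImplicit false

namespace Crest.Agent.R211

open MeasureTheory Set
open scoped ENNReal

/-- A triangular cylinder. -/
structure Tri where
  u : E3
  p : E3
  q : E3
  r : E3

/-- unit direction, perpendicular base -/
def Tri.good (T : Tri) : Prop :=
  ‖T.u‖ = 1 ∧ inner ℝ T.p T.u = 0 ∧ inner ℝ T.q T.u = 0 ∧ inner ℝ T.r T.u = 0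

/-- the cylinder -/
def Tri.cyl (T : Tri) : Set E3 :=
  {x | ∃ b ∈ convexHull ℝ {T.p, T.q, T.r}, ∃ t : ℝ, x = b + t • T.u}

/-- the area of the base -/
noncomputable def Tri.area (T : Tri) : ℝ := gram (T.q - T.p) (T.r - T.p) / 2

/-- The cylinder with direction `d` through the triangle `P Q R`. -/
noncomputable def mkTri (P Q R d : E3) : Tri := ⟨‖d‖⁻¹ • d, proj d P, proj d Q, proj d R⟩

lemma mkTri_good (P Q R : E3) {d : E3} (hd : d ≠ 0) : (mkTri P Q R d).good := by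
  refine ⟨norm_smul_inv_norm hd, ?_, ?_, ?_⟩ <;>
    simp only [mkTri, inner_smul_right, inner_proj hd, mul_zero]

lemma mkTri_area (P Q R : E3) {d : E3} (hd : d ≠ 0) :
    (mkTri P Q R d).area = |det3 (Q - P) (R - P) d| / ‖d‖ / 2 := by
  simp only [Tri.area, mkTri, ← proj_sub, gram_proj hd]

lemma mem_mkTri {P Q R d x : E3} (hd : d ≠ 0) {s t τ : ℝ} (h : (s, t) ∈ stdTri)
    (hx : x = P + s • (Q - P) + t • (R - P) + τ • d) : x ∈ (mkTri P Q R d).cyl := by
  have h0 : ‖d‖ ≠ 0 := norm_ne_zero_iff.mpr hd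
  refine ⟨proj d (P + s • (Q - P) + t • (R - P)), ?_,
    (τ + inner ℝ (P + s • (Q - P) + t • (R - P)) d / ‖d‖ ^ 2) * ‖d‖, ?_⟩
  · simp only [mkTri, convexHull_triangle, ← proj_sub, ← proj_plane]
    exact mem_image_of_mem _ (mem_plane.mpr ⟨s, t, h, rfl⟩)
  · simp only [mkTri, smul_smul, mul_assoc, mul_inv_cancel₀ h0, mul_one, hx, proj, add_smul]
    abel

/-- The standard regular tetrahedron. -/
noncomputable def K0 : Set E3 :=
  convexHull ℝ {!₂[1, 0, 0], !₂[-1, 0, 0], !₂[0, 1, Real.sqrt 2], !₂[0, -1, Real.sqrt 2]}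

lemma sqrt_two_pos : (0 : ℝ) < √2 := by positivity

lemma mem_K0 {X : E3} (hX : X ∈ K0) : |X 0| ≤ 1 - X 2 / √2 ∧ |X 1| ≤ X 2 / √2 := by
  have h0 := sqrt_two_pos.ne'
  have : K0 ⊆ {X : E3 | |X 0| ≤ 1 - X 2 / √2 ∧ |X 1| ≤ X 2 / √2} := by
    apply convexHull_min
    · rintro x (rfl | rfl | rfl | rfl) <;> simp
    · rintro x ⟨h1, h2⟩ y ⟨h3, h4⟩ a b ha hb hab
      simp only [mem_ofPred_eq, PiLp.add_apply, PiLp.smul_apply, smul_eq_mul]
      rw [abs_le] at *
      have e : (a * x 2 + b * y 2) / √2 = a * (x 2 / √2) + b * (y 2 / √2) := by ring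
      rw [e, abs_le]
      refine ⟨⟨?_, ?_⟩, ?_, ?_⟩ <;> nlinarith [h1.1, h1.2, h2.1, h2.2, h3.1, h3.2, h4.1, h4.2]
  exact this hX

lemma isCompact_K0 : IsCompact K0 := (Set.toFinite _).isCompact_convexHull ℝ

/-- lower cylinders -/
noncomputable def lowT (i : ℕ) : Tri :=
  mkTri 0 (RR (mm i) • !₂[0, tt i, √2]) (RR (mm i) • !₂[0, tt (i + 1), √2])
    !₂[1, 1 / 100 * pp (mm i), √2 * (1 / 100 * mm i)]

/-- upper cylinders -/
noncomputable def upT (i : ℕ) : Tri :=
  mkTri !₂[0, 0, √2] (!₂[0, 0, √2] + RR (mm i) • !₂[tt i, 0, -√2])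
    (!₂[0, 0, √2] + RR (mm i) • !₂[tt (i + 1), 0, -√2])
    !₂[-(1 / 100 * pp (mm i)), 1, √2 * (1 / 100 * mm i)]

lemma low_ne (a b : ℝ) : (!₂[1, a, b] : E3) ≠ 0 := fun h => by
  simpa using congrArg (fun x : E3 => x 0) h

lemma up_ne (a b : ℝ) : (!₂[a, 1, b] : E3) ≠ 0 := fun h => by
  simpa using congrArg (fun x : E3 => x 1) h

lemma norm3 (a b c : ℝ) : ‖(!₂[a, b, c] : E3)‖ = √(a ^ 2 + b ^ 2 + c ^ 2) := by
  simp [EuclideanSpace.norm_eq, Fin.sum_univ_three]

lemma lowT_area (i : ℕ) : (lowT i).area = √2 / 2 * (1 / 500000 * hh (mm i)) := by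
  rw [lowT, mkTri_area _ _ _ (low_ne _ _), norm3, hh]
  have e : det3 (RR (mm i) • !₂[0, tt i, √2] - 0) (RR (mm i) • !₂[0, tt (i + 1), √2] - 0)
      !₂[1, 1 / 100 * pp (mm i), √2 * (1 / 100 * mm i)]
      = -(√2 * (1 / 500000) * RR (mm i) ^ 2) := by
    simp [det3, tt_succ]; ring
  rw [e, abs_neg, abs_of_nonneg (by positivity), mul_pow √2, Real.sq_sqrt (by norm_num), one_pow]
  ring

lemma upT_area (i : ℕ) : (upT i).area = √2 / 2 * (1 / 500000 * hh (mm i)) := by
  rw [upT, mkTri_area _ _ _ (up_ne _ _), norm3, hh]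
  have e : det3 (!₂[0, 0, √2] + RR (mm i) • !₂[tt i, 0, -√2] - !₂[0, 0, √2])
      (!₂[0, 0, √2] + RR (mm i) • !₂[tt (i + 1), 0, -√2] - !₂[0, 0, √2])
      !₂[-(1 / 100 * pp (mm i)), 1, √2 * (1 / 100 * mm i)]
      = -(√2 * (1 / 500000) * RR (mm i) ^ 2) := by
    simp [det3, tt_succ]; ring
  rw [e, abs_neg, abs_of_nonneg (by positivity), mul_pow √2, Real.sq_sqrt (by norm_num), one_pow,
    neg_sq, add_comm _ (1 : ℝ)]
  ring

lemma sector_mem {t A y R : ℝ} (hR : 0 < R) (h1 : t * A ≤ y) (h2 : y ≤ (t + 1 / 500000) * A)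
    (h3 : A ≤ R) : (((t + 1 / 500000) * A - y) * 500000 / R, (y - t * A) * 500000 / R) ∈ stdTri := by
  refine ⟨div_nonneg (by linarith) hR.le, div_nonneg (by linarith) hR.le, ?_⟩
  simp only
  rw [← add_div, div_le_one hR]
  linarith

theorem K0_cover : ∃ T : Fin NN ⊕ Fin NN → Tri, (∀ i, (T i).good) ∧ K0 ⊆ ⋃ i, (T i).cyl ∧
    ∑ i, (T i).area ≤ √2 * (1 / 2 - 1 / 2000000) := by
  refine ⟨Sum.elim (fun i => lowT i) (fun i => upT i), ?_, ?_, ?_⟩
  · rintro (i | i)
    · exact mkTri_good _ _ _ (low_ne _ _)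
    · exact mkTri_good _ _ _ (up_ne _ _)
  · intro X hX
    obtain ⟨hx, hy⟩ := mem_K0 hX
    have h0 := sqrt_two_pos.ne'
    rcases cover_real hx hy with ⟨i, hi, h1, h2, h3⟩ | ⟨i, hi, h1, h2, h3⟩
    · refine mem_iUnion.mpr ⟨Sum.inl ⟨i, hi⟩, ?_⟩
      rw [tt_succ] at h2
      have hR := RR_pos (mm i)
      refine mem_mkTri (low_ne _ _) (sector_mem hR h1 h2 h3) (τ := X 0) ?_
      ext k
      fin_cases k <;> simp [tt_succ] <;> field_simp <;> ring
    · refine mem_iUnion.mpr ⟨Sum.inr ⟨i, hi⟩, ?_⟩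
      rw [tt_succ] at h2
      have hR := RR_pos (mm i)
      refine mem_mkTri (up_ne _ _) (sector_mem hR h1 h2 h3) (τ := X 1) ?_
      ext k
      fin_cases k <;> simp [tt_succ] <;> field_simp <;> ring
  · rw [Fintype.sum_sum_type]
    simp only [Sum.elim_inl, Sum.elim_inr, lowT_area, upT_area]
    rw [Fin.sum_univ_eq_sum_range (fun i => √2 / 2 * (1 / 500000 * hh (mm i))), ← Finset.mul_sum]
    nlinarith [sum_hh_le, sqrt_two_pos]

/-- A cylinder with prescribed base area. -/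
noncomputable def padT (α : ℝ) : Tri := ⟨!₂[1, 0, 0], 0, !₂[0, α, 0], !₂[0, 0, 2]⟩

lemma padT_good (α : ℝ) : (padT α).good := by
  refine ⟨?_, ?_, ?_, ?_⟩
  · simp [padT, norm3]
  all_goals simp [padT, PiLp.inner_apply, Fin.sum_univ_three]

lemma padT_area {α : ℝ} (h : 0 ≤ α) : (padT α).area = α := by
  simp only [Tri.area, padT, sub_zero, gram, norm3]
  rw [Real.sq_sqrt (by positivity), Real.sq_sqrt (by positivity)]
  simp only [PiLp.inner_apply, Fin.sum_univ_three]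
  simp
  exact Real.sqrt_sq h

lemma pad_cover {ι : Type} [Fintype ι] (T : ι → Tri) (hT : ∀ i, (T i).good) {M : ℕ}
    (hM : Fintype.card ι < M) {A : ℝ} (hA : ∑ i, (T i).area ≤ A) :
    ∃ T' : Fin M → Tri, (∀ i, (T' i).good) ∧ ⋃ i, (T i).cyl ⊆ ⋃ i, (T' i).cyl ∧
      ∑ i, (T' i).area = A := by
  obtain ⟨e⟩ : Nonempty ((ι ⊕ Unit) ⊕ Fin (M - Fintype.card ι - 1) ≃ Fin M) :=
    ⟨Fintype.equivFinOfCardEq (by simp; omega)⟩
  let S : (ι ⊕ Unit) ⊕ Fin (M - Fintype.card ι - 1) → Tri :=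
    Sum.elim (Sum.elim T fun _ => padT (A - ∑ i, (T i).area)) fun _ => padT 0
  refine ⟨fun j => S (e.symm j), fun j => ?_, ?_, ?_⟩
  · dsimp only
    rcases e.symm j with (i | i) | i
    · exact hT i
    · exact padT_good _
    · exact padT_good _
  · intro x hx
    obtain ⟨i, hi⟩ := mem_iUnion.mp hx
    exact mem_iUnion.mpr ⟨e (Sum.inl (Sum.inl i)), by simpa [S] using hi⟩
  · rw [Equiv.sum_comp e.symm (fun j => (S j).area), Fintype.sum_sum_type, Fintype.sum_sum_type]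
    simp [S, padT_area (sub_nonneg.mpr hA), padT_area le_rfl]

/-! ### Lower bounds for projection areas -/

lemma tri_le_proj {K : Set E3} (hK : Convex ℝ K) {v P Q R : E3} (hv : ‖v‖ = 1) (hP : P ∈ K)
    (hQ : Q ∈ K) (hR : R ∈ K) :
    plane (proj v P) (proj v (Q - P)) (proj v (R - P)) stdTri ⊆ proj v '' K ∧
    μHE[2] (plane (proj v P) (proj v (Q - P)) (proj v (R - P)) stdTri)
      = ENNReal.ofReal (|det3 (Q - P) (R - P) v| / 2) := by
  have hv0 : v ≠ 0 := by rintro rfl; simp at hv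
  constructor
  · rw [← proj_plane, ← convexHull_triangle]
    refine image_mono (convexHull_min ?_ hK)
    rintro x (rfl | rfl | rfl) <;> assumption
  · rw [area_plane, volume_stdTri, gram_proj hv0, hv, ← ENNReal.ofReal_mul (by positivity)]
    congr 1; ring

lemma tri_le_area {K : Set E3} (hK : Convex ℝ K) {v P Q R : E3} (hv : ‖v‖ = 1) (hP : P ∈ K)
    (hQ : Q ∈ K) (hR : R ∈ K) :
    ENNReal.ofReal (|det3 (Q - P) (R - P) v| / 2) ≤ μHE[2] (proj v '' K) := by
  obtain ⟨h1, h2⟩ := tri_le_proj hK hv hP hQ hR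
  rw [← h2]
  exact measure_mono h1

lemma det3_proj_mid (a b v : E3) : det3 a (proj v b) v = det3 a b v := by
  simp only [proj, det3, PiLp.sub_apply, PiLp.smul_apply, smul_eq_mul]; ring

lemma quad_le_area {K : Set E3} (hK : Convex ℝ K) {v P Q R S : E3} (hv : ‖v‖ = 1) (hP : P ∈ K)
    (hQ : Q ∈ K) (hR : R ∈ K) (hS : S ∈ K) :
    ENNReal.ofReal (|det3 (Q - P) (R - S) v| / 2) ≤ μHE[2] (proj v '' K) := by
  have e : det3 (Q - P) (R - S) v = det3 (Q - P) (R - P) v - det3 (Q - P) (S - P) v := by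
    simp only [det3, PiLp.sub_apply]; ring
  set d1 := det3 (Q - P) (R - P) v with hd1
  set d2 := det3 (Q - P) (S - P) v with hd2
  by_cases h : 0 ≤ d1 * d2
  · rcases le_total |d1| |d2| with h' | h'
    · refine le_trans (ENNReal.ofReal_le_ofReal ?_) (tri_le_area hK hv hP hQ hS)
      rw [e, ← hd2]
      have : |d1 - d2| ≤ |d2| := by
        have := sq_le_sq.mpr h'
        exact sq_le_sq.mp (by nlinarith)
      linarith
    · refine le_trans (ENNReal.ofReal_le_ofReal ?_) (tri_le_area hK hv hP hQ hR)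
      rw [e, ← hd1]
      have : |d1 - d2| ≤ |d1| := by
        have := sq_le_sq.mpr h'
        exact sq_le_sq.mp (by nlinarith)
      linarith
  · push Not at h
    obtain ⟨h1, h2⟩ := tri_le_proj hK hv hP hQ hR
    obtain ⟨h3, h4⟩ := tri_le_proj hK hv hP hQ hS
    have h5 := measure_union_add_inter (μ := (μHE[2] : Measure E3))
      (plane (proj v P) (proj v (Q - P)) (proj v (R - P)) stdTri)
      (isCompact_plane (proj v P) (proj v (Q - P)) (proj v (S - P)) isCompact_stdTri).measurableSet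
    have h6 : μHE[2] (plane (proj v P) (proj v (Q - P)) (proj v (R - P)) stdTri ∩
        plane (proj v P) (proj v (Q - P)) (proj v (S - P)) stdTri) = 0 := by
      refine measure_mono_null (t := plane (proj v P) (proj v (Q - P)) (proj v (R - P))
        (univ ×ˢ {0})) ?_ ?_
      · rintro x ⟨hx1, hx2⟩
        obtain ⟨s, t, hst, rfl⟩ := mem_plane.mp hx1
        obtain ⟨s', t', hst', hx⟩ := mem_plane.mp hx2
        refine mem_plane.mpr ⟨s, t, ⟨trivial, ?_⟩, rfl⟩
        have h7 : t * d1 = t' * d2 := by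
          have := congrArg (fun x => det3 (Q - P) (x - proj v P) v) hx
          simp only [add_assoc, add_sub_cancel_left] at this
          simp only [← proj_smul, ← proj_add, det3_proj_mid] at this
          simp only [hd1, hd2, det3, PiLp.add_apply, PiLp.smul_apply, smul_eq_mul] at this ⊢
          linear_combination this
        have ht : 0 ≤ t := hst.2.1
        have ht' : 0 ≤ t' := hst'.2.1
        have hd : d1 ≠ 0 := by rintro h0; rw [h0] at h; simp at h
        have : t * d1 ^ 2 ≤ 0 := by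
          have e1 : t * d1 ^ 2 = t' * (d1 * d2) := by linear_combination d1 * h7
          rw [e1]
          exact mul_nonpos_of_nonneg_of_nonpos ht' h.le
        have h8 : 0 < d1 ^ 2 := by positivity
        simp only [mem_singleton_iff]
        nlinarith
      · rw [area_plane, Measure.volume_eq_prod, Measure.prod_prod]; simp
    rw [h6, add_zero, h2, h4, ← ENNReal.ofReal_add (by positivity) (by positivity)] at h5
    refine le_trans ?_ (measure_mono (union_subset h1 h3))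
    rw [h5, e]
    apply ENNReal.ofReal_le_ofReal
    linarith [abs_sub d1 d2]

lemma min_ineq {α β γ s m : ℝ} (hs : s ^ 2 = 2) (hs0 : 0 < s) (h : α ^ 2 + β ^ 2 + γ ^ 2 = 1)
    (h1 : |2 * γ| ≤ m) (h2 : |s * (α + β)| ≤ m) (h3 : |s * (α - β)| ≤ m)
    (h4 : |s * α + γ| ≤ m) (h5 : |s * α - γ| ≤ m) (h6 : |s * β + γ| ≤ m) (h7 : |s * β - γ| ≤ m) :
    s ≤ m := by
  set b1 := s * (α + β) with hb1
  set b2 := s * (α - β) with hb2
  set b3 := 2 * γ with hb3
  have e : |b1| ^ 2 + |b2| ^ 2 + |b3| ^ 2 = 4 := by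
    simp only [sq_abs, hb1, hb2, hb3]
    linear_combination 4 * h + (2 * α ^ 2 + 2 * β ^ 2) * hs
  have h8 : |b1| + |b2| + |b3| ≤ 2 * m := by
    rw [abs_le] at h4 h5 h6 h7
    rcases abs_cases b1 with ⟨e1, -⟩ | ⟨e1, -⟩ <;> rcases abs_cases b2 with ⟨e2, -⟩ | ⟨e2, -⟩ <;>
      rcases abs_cases b3 with ⟨e3, -⟩ | ⟨e3, -⟩ <;> rw [e1, e2, e3, hb1, hb2, hb3] <;>
      linarith [h4.1, h4.2, h5.1, h5.2, h6.1, h6.2, h7.1, h7.2]
  have hm : 0 ≤ m := (abs_nonneg _).trans h1
  have h9 : 4 ≤ m * (2 * m) := by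
    nlinarith [abs_nonneg b1, abs_nonneg b2, abs_nonneg b3]
  nlinarith

lemma proj_lt_top {K : Set E3} (hK : IsCompact K) {v : E3} (hv : ‖v‖ = 1) :
    μHE[2] (proj v '' K) < ⊤ := by
  have hv0 : v ≠ 0 := by rintro rfl; simp at hv
  refine area_lt_top hv0 (hK.image (show Continuous fun y => proj v y by unfold proj; fun_prop)).isBounded ?_
  rintro _ ⟨x, -, rfl⟩
  exact inner_proj hv0 x

theorem K0_proj_ge {v : E3} (hv : ‖v‖ = 1) : √2 ≤ (μHE[2] (proj v '' K0)).toReal := by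
  have hfin := (proj_lt_top isCompact_K0 hv).ne
  have hc : Convex ℝ K0 := convex_convexHull _ _
  have w0 : (!₂[1, 0, 0] : E3) ∈ K0 := subset_convexHull _ _ (by simp)
  have w1 : (!₂[-1, 0, 0] : E3) ∈ K0 := subset_convexHull _ _ (by simp)
  have w2 : (!₂[0, 1, √2] : E3) ∈ K0 := subset_convexHull _ _ (by simp)
  have w3 : (!₂[0, -1, √2] : E3) ∈ K0 := subset_convexHull _ _ (by simp)
  have key : ∀ {d x : ℝ}, ENNReal.ofReal (|d| / 2) ≤ μHE[2] (proj v '' K0) → d = 2 * x →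
      |x| ≤ (μHE[2] (proj v '' K0)).toReal := by
    intro d x h e
    have := (ENNReal.ofReal_le_iff_le_toReal hfin).mp h
    rw [e, abs_mul, abs_two] at this
    linarith
  have hn : v 0 ^ 2 + v 1 ^ 2 + v 2 ^ 2 = 1 := by
    have := EuclideanSpace.real_norm_sq_eq v
    rw [hv, Fin.sum_univ_three] at this
    linarith
  refine min_ineq (Real.sq_sqrt (by norm_num)) sqrt_two_pos hn
    (key (quad_le_area hc hv w1 w0 w2 w3) ?_) (key (quad_le_area hc hv w2 w0 w1 w3) ?_)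
    (key (quad_le_area hc hv w0 w3 w1 w2) ?_) (key (tri_le_area hc hv w0 w2 w3) ?_)
    (key (tri_le_area hc hv w1 w2 w3) ?_) (key (tri_le_area hc hv w1 w3 w0) ?_)
    (key (tri_le_area hc hv w1 w2 w0) ?_)
  all_goals simp [det3]
  all_goals ring

theorem K0_proj_eq : μHE[2] (proj !₂[1, 0, 0] '' K0) = ENNReal.ofReal √2 := by
  have hv : ‖(!₂[1, 0, 0] : E3)‖ = 1 := by simp [norm3]
  apply le_antisymm
  · have h0 := sqrt_two_pos.ne'
    have : proj !₂[1, 0, 0] '' K0 ⊆ plane 0 !₂[0, 1, √2] !₂[0, -1, √2] stdTri := by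
      rintro _ ⟨X, hX, rfl⟩
      obtain ⟨h1, h2⟩ := mem_K0 hX
      rw [abs_le] at h2
      refine mem_plane.mpr ⟨(X 2 / √2 + X 1) / 2, (X 2 / √2 - X 1) / 2,
        ⟨by linarith [h2.1], by linarith [h2.2], by linarith [abs_nonneg (X 0)]⟩, ?_⟩
      rw [proj_of_norm_one hv]
      ext k
      fin_cases k <;> simp [PiLp.inner_apply, Fin.sum_univ_three] <;> field_simp <;> ring
    refine (measure_mono this).trans ?_
    rw [area_plane, volume_stdTri, ← ENNReal.ofReal_mul (gram_nonneg _ _)]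
    apply ENNReal.ofReal_le_ofReal
    simp only [gram, norm3]
    rw [Real.sq_sqrt (by positivity), Real.sq_sqrt (by positivity), Real.sq_sqrt (by positivity)]
    simp only [PiLp.inner_apply, Fin.sum_univ_three]
    simp
    rw [show ((1 : ℝ) + 2) * (1 + 2) - (-1 + 2) ^ 2 = 2 ^ 2 * 2 by norm_num,
      Real.sqrt_mul (by positivity), Real.sqrt_sq (by norm_num)]
    linarith
  · exact (ENNReal.ofReal_le_iff_le_toReal (proj_lt_top isCompact_K0 hv).ne).mpr (K0_proj_ge hv)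

end Crest.Agent.R211
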