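import Mathlib
import Crest.Agent.R211.Tet

/-!
The statements about the regular tetrahedron.
-/

set_option autoImplicit false

namespace Crest.Agent.R211

open MeasureTheory Set
open scoped ENNReal Pointwise

lemma proj_fun {v : E3} (hv : ‖v‖ = 1) : (fun y : E3 => y - inner ℝ y v • v) = proj v :=
  funext fun y => (proj_of_norm_one hv y).symm

lemma Tri.area_eq (T : Tri) :
    (μHE[2] (convexHull ℝ ({T.p, T.q, T.r} : Set E3))).toReal = T.area :=
  area_triangle_toReal _ _ _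

lemma Tri.area_nonneg (T : Tri) : 0 ≤ T.area := by
  have := gram_nonneg (T.q - T.p) (T.r - T.p)
  unfold Tri.area
  positivity

theorem s0325 :
    ((∀ v : E3, ‖v‖ = 1 →
        ENNReal.ofReal (Real.sqrt 2) ≤ μHE[2] ((fun y => y - inner ℝ y v • v) '' K0)) ∧
      ∃ v : E3, ‖v‖ = 1 ∧
        μHE[2] ((fun y => y - inner ℝ y v • v) '' K0) = ENNReal.ofReal (Real.sqrt 2)) ∧
    ∀ ε : ℝ, 0 < ε → ε ≤ 1 / 2000 →
      ∃ (u p q r : Fin (2 * ⌈2 / ε ^ 2⌉₊) → E3),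
        (∀ i, ‖u i‖ = 1) ∧
        (∀ i, inner ℝ (p i) (u i) = 0 ∧ inner ℝ (q i) (u i) = 0 ∧ inner ℝ (r i) (u i) = 0) ∧
        K0 ⊆ ⋃ i, {x : E3 | ∃ b ∈ convexHull ℝ {p i, q i, r i}, ∃ t : ℝ, x = b + t • u i} ∧
        abs ((∑ i, (μHE[2] (convexHull ℝ ({p i, q i, r i} : Set E3))).toReal) / Real.sqrt 2 -
            (1 / 2 - 13 / 6000 * ε ^ 2)) ≤ 2 * ε ^ 4 := by
  refine ⟨⟨fun v hv => ?_, !₂[1, 0, 0], by simp [norm3], ?_⟩, fun ε h0 h1 => ?_⟩
  · rw [proj_fun hv]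
    exact (ENNReal.ofReal_le_iff_le_toReal (proj_lt_top isCompact_K0 hv).ne).mpr (K0_proj_ge hv)
  · rw [proj_fun (by simp [norm3]), K0_proj_eq]
  · obtain ⟨T, hT, hc, hA⟩ := K0_cover
    have hε : ε ^ 2 ≤ 1 / 4000000 := by nlinarith
    have hM : Fintype.card (Fin NN ⊕ Fin NN) < 2 * ⌈2 / ε ^ 2⌉₊ := by
      have h2 : (8000000 : ℝ) ≤ 2 / ε ^ 2 := by
        rw [le_div_iff₀ (by positivity)]; linarith
      have h3 : (8000000 : ℝ) ≤ ⌈2 / ε ^ 2⌉₊ := h2.trans (Nat.le_ceil _)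
      have h4 : 8000000 ≤ ⌈2 / ε ^ 2⌉₊ := by exact_mod_cast h3
      rw [Fintype.card_sum, Fintype.card_fin, NN]
      omega
    obtain ⟨T', hT', hc', hA'⟩ := pad_cover T hT hM (A := √2 * (1 / 2 - 13 / 6000 * ε ^ 2))
      (hA.trans (mul_le_mul_of_nonneg_left (by linarith) sqrt_two_pos.le))
    refine ⟨fun i => (T' i).u, fun i => (T' i).p, fun i => (T' i).q, fun i => (T' i).r,
      fun i => (hT' i).1, fun i => (hT' i).2, hc.trans hc', ?_⟩
    simp only [Tri.area_eq, hA']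
    rw [mul_div_cancel_left₀ _ sqrt_two_pos.ne', sub_self, abs_zero]
    positivity

lemma K0_cover' : ∃ (k : ℕ) (T : Fin k → Tri), (∀ i, (T i).good) ∧ K0 ⊆ ⋃ i, (T i).cyl ∧
    ∑ i, (T i).area = √2 * (1 / 2 - 1 / 2000000) := by
  obtain ⟨T, hT, hc, hA⟩ := K0_cover
  obtain ⟨T', hT', hc', hA'⟩ := pad_cover T hT (Nat.lt_succ_self _) hA
  exact ⟨_, T', hT', hc.trans hc', hA'⟩

theorem s0324 :
    ∃ (m : ℕ) (u p q r : Fin m → E3),
      (∀ i, ‖u i‖ = 1) ∧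
      (∀ i, inner ℝ (p i) (u i) = 0 ∧ inner ℝ (q i) (u i) = 0 ∧ inner ℝ (r i) (u i) = 0) ∧
      K0 ⊆ ⋃ i, {x : E3 | ∃ b ∈ convexHull ℝ {p i, q i, r i}, ∃ t : ℝ, x = b + t • u i} ∧
      ∃ δ : ℝ, 0 < δ ∧ ∀ v : E3, ‖v‖ = 1 →
        ∑ i, (μH[(2 : ℝ)] (convexHull ℝ {p i, q i, r i})).toReal + δ ≤
          (μH[(2 : ℝ)] ((fun y => y - inner ℝ y v • v) '' K0)).toReal / 2 := by
  obtain ⟨k, T', hT', hc', hA'⟩ := K0_cover'
  set c : ℝ := (Measure.addHaarScalarFactor (volume : Measure E2) μH[(2 : ℕ)] : ℝ) with hc0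
  have hcpos : 0 < c := by
    have := Measure.addHaarScalarFactor_volume_hausdorffMeasure_ne_zero 2
    exact_mod_cast pos_iff_ne_zero.mpr this
  have key : ∀ s : Set E3, (μH[(2 : ℝ)] s).toReal = c⁻¹ * (μHE[2] s).toReal := by
    intro s
    rw [Measure.euclideanHausdorffMeasure_def, Measure.smul_apply, ENNReal.smul_def, smul_eq_mul,
      ENNReal.toReal_mul, ENNReal.coe_toReal, ← hc0, ← mul_assoc, inv_mul_cancel₀ hcpos.ne',
      one_mul]
    norm_num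
  refine ⟨_, fun i => (T' i).u, fun i => (T' i).p, fun i => (T' i).q, fun i => (T' i).r,
    fun i => (hT' i).1, fun i => (hT' i).2, hc', c⁻¹ * (√2 / 2000000),
    by have := sqrt_two_pos; positivity, fun v hv => ?_⟩
  rw [proj_fun hv, key (proj v '' K0), Finset.sum_congr rfl fun i _ => key _]
  simp only [Tri.area_eq]
  rw [← Finset.mul_sum, hA']
  have h1 := K0_proj_ge hv
  have h2 : 0 < c⁻¹ := inv_pos.mpr hcpos
  nlinarith

/-! ### Transport to a general regular tetrahedron -/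

/-- A similarity. -/
noncomputable def sim (c : E3) (s : ℝ) (O : E3 ≃ₗᵢ[ℝ] E3) (x : E3) : E3 := c + s • O x

lemma area_sim (c : E3) {s : ℝ} (hs : 0 < s) (O : E3 ≃ₗᵢ[ℝ] E3) (X : Set E3) :
    (μHE[2] (sim c s O '' X)).toReal = s ^ 2 * (μHE[2] X).toReal := by
  have e : sim c s O '' X = (fun x => c + x) '' (s • (O '' X)) := by
    ext y
    simp only [sim, mem_image, Set.mem_smul_set]
    constructor
    · rintro ⟨x, hx, rfl⟩; exact ⟨_, ⟨_, ⟨x, hx, rfl⟩, rfl⟩, rfl⟩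
    · rintro ⟨_, ⟨_, ⟨x, hx, rfl⟩, rfl⟩, rfl⟩; exact ⟨x, hx, rfl⟩
  rw [e, (isometry_add_left c).euclideanHausdorffMeasure_image,
    Measure.euclideanHausdorffMeasure_smul₀ 2 hs.ne', O.isometry.euclideanHausdorffMeasure_image,
    ENNReal.smul_def, smul_eq_mul, ENNReal.toReal_mul]
  simp [abs_of_pos hs]

lemma proj_map (O : E3 ≃ₗᵢ[ℝ] E3) (u x : E3) : proj (O u) (O x) = O (proj u x) := by
  simp [proj]

lemma proj_sim (c : E3) (s : ℝ) (O : E3 ≃ₗᵢ[ℝ] E3) (v : E3) (X : Set E3) :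
    proj v '' (sim c s O '' X) = sim (proj v c) s O '' (proj (O.symm v) '' X) := by
  simp only [image_image, sim, proj_add, proj_smul, ← proj_map, O.apply_symm_apply]

/-- Transport of a cylinder. -/
noncomputable def Tri.map (T : Tri) (c : E3) (s : ℝ) (O : E3 ≃ₗᵢ[ℝ] E3) : Tri :=
  mkTri (sim c s O T.p) (sim c s O T.q) (sim c s O T.r) (O T.u)

lemma Tri.good.map_ne {T : Tri} (h : T.good) (O : E3 ≃ₗᵢ[ℝ] E3) : O T.u ≠ 0 := by
  rw [← norm_ne_zero_iff, O.norm_map, h.1]; norm_num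

lemma proj_of_inner_eq_zero {u x : E3} (h : inner ℝ x u = 0) : proj u x = x := by simp [proj, h]

lemma Tri.map_area {T : Tri} (h : T.good) (c : E3) {s : ℝ} (O : E3 ≃ₗᵢ[ℝ] E3) :
    (T.map c s O).area = s ^ 2 * T.area := by
  obtain ⟨-, h1, h2, h3⟩ := h
  simp only [Tri.map, Tri.area, mkTri, sim, proj_add, proj_smul, proj_map, add_sub_add_left_eq_sub,
    ← smul_sub, gram_smul, proj_of_inner_eq_zero h1, proj_of_inner_eq_zero h2,
    proj_of_inner_eq_zero h3, ← map_sub]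
  rw [abs_mul_self]
  simp only [gram, O.norm_map, O.inner_map_map]
  ring

lemma Tri.map_cyl {T : Tri} (h : T.good) (c : E3) (s : ℝ) (O : E3 ≃ₗᵢ[ℝ] E3) :
    sim c s O '' T.cyl ⊆ (T.map c s O).cyl := by
  rintro _ ⟨_, ⟨b, hb, τ, rfl⟩, rfl⟩
  rw [convexHull_triangle] at hb
  obtain ⟨a, t, hat, rfl⟩ := mem_plane.mp hb
  refine mem_mkTri (h.map_ne O) hat (τ := s * τ) ?_
  simp only [sim, map_add, map_smul, map_sub]
  module

lemma exists_sim (w : Fin 4 → E3) {ℓ : ℝ} (hℓ : 0 < ℓ)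
    (hw : ∀ i j, i ≠ j → dist (w i) (w j) = ℓ) :
    ∃ (c : E3) (O : E3 ≃ₗᵢ[ℝ] E3), convexHull ℝ (range w) = sim c (ℓ / 2) O '' K0 := by
  obtain ⟨a, ha⟩ : ∃ a, a = w 1 - w 0 := ⟨_, rfl⟩
  obtain ⟨b, hb⟩ : ∃ b, b = w 2 - w 0 := ⟨_, rfl⟩
  obtain ⟨d, hd⟩ : ∃ d, d = w 3 - w 0 := ⟨_, rfl⟩
  have n : ∀ i j, i ≠ j → inner ℝ (w i - w j) (w i - w j) = ℓ ^ 2 := fun i j h => by
    rw [real_inner_self_eq_norm_sq, ← dist_eq_norm, hw i j h]
  have aa : inner ℝ a a = ℓ ^ 2 := ha ▸ n 1 0 (by decide)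
  have bb : inner ℝ b b = ℓ ^ 2 := hb ▸ n 2 0 (by decide)
  have dd : inner ℝ d d = ℓ ^ 2 := hd ▸ n 3 0 (by decide)
  have ab : inner ℝ a b = ℓ ^ 2 / 2 := by
    have := n 1 2 (by decide)
    rw [show w 1 - w 2 = a - b by rw [ha, hb]; abel, inner_sub_left, inner_sub_right,
      inner_sub_right, real_inner_comm a b] at this
    linarith
  have ad : inner ℝ a d = ℓ ^ 2 / 2 := by
    have := n 1 3 (by decide)
    rw [show w 1 - w 3 = a - d by rw [ha, hd]; abel, inner_sub_left, inner_sub_right,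
      inner_sub_right, real_inner_comm a d] at this
    linarith
  have bd : inner ℝ b d = ℓ ^ 2 / 2 := by
    have := n 2 3 (by decide)
    rw [show w 2 - w 3 = b - d by rw [hb, hd]; abel, inner_sub_left, inner_sub_right,
      inner_sub_right, real_inner_comm b d] at this
    linarith
  have ba : inner ℝ b a = ℓ ^ 2 / 2 := by rw [real_inner_comm, ab]
  have da : inner ℝ d a = ℓ ^ 2 / 2 := by rw [real_inner_comm, ad]
  have db : inner ℝ d b = ℓ ^ 2 / 2 := by rw [real_inner_comm, bd]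
  have h2 : √2 * √2 = 2 := Real.mul_self_sqrt (by norm_num)
  have h2' := sqrt_two_pos.ne'
  let e : Fin 3 → E3 := ![ℓ⁻¹ • (-a), ℓ⁻¹ • (b - d), (√2 * ℓ)⁻¹ • (b + d - a)]
  have he : Orthonormal ℝ e := by
    rw [orthonormal_iff_ite]
    intro i j
    have hl := hℓ.ne'
    have h3 : √2 ^ 2 = 2 := Real.sq_sqrt (by norm_num)
    fin_cases i <;> fin_cases j <;>
      simp only [e, Fin.zero_eta, Fin.mk_one, Fin.reduceFinMk, Matrix.cons_val_zero,
        Matrix.cons_val_one, Matrix.cons_val, real_inner_smul_left, real_inner_smul_right,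
        inner_sub_left, inner_sub_right, inner_add_left, inner_neg_left, inner_neg_right,
        inner_add_right, aa, bb, dd, ab, ad, bd, ba, da, db, Fin.reduceEq, if_true, if_false] <;>
      field_simp <;> (try rw [h3]) <;> ring
  let B : OrthonormalBasis (Fin 3) ℝ E3 := OrthonormalBasis.mk he
    (he.linearIndependent.span_eq_top_of_card_eq_finrank (by simp)).ge
  have hO : ∀ x : E3, B.repr.symm x = x 0 • e 0 + x 1 • e 1 + x 2 • e 2 := fun x => by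
    rw [← B.sum_repr_symm, Fin.sum_univ_three]
    simp [B]
  refine ⟨w 0 + (1 / 2 : ℝ) • a, B.repr.symm, ?_⟩
  let F : E3 →ᵃ[ℝ] E3 := (AffineEquiv.constVAdd ℝ E3 (w 0 + (1 / 2 : ℝ) • a)).toAffineMap.comp
    ((ℓ / 2) • B.repr.symm.toLinearEquiv.toLinearMap).toAffineMap
  have hF : sim (w 0 + (1 / 2 : ℝ) • a) (ℓ / 2) B.repr.symm = F := rfl
  rw [hF, K0, AffineMap.image_convexHull, ← hF]
  congr 1
  have hw1 : w 1 = w 0 + a := by rw [ha]; abel
  have hw2 : w 2 = w 0 + b := by rw [hb]; abel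
  have hw3 : w 3 = w 0 + d := by rw [hd]; abel
  have hr : range w = {w 0, w 1, w 2, w 3} := by
    ext x
    simp only [mem_range, mem_insert_iff, mem_singleton_iff]
    constructor
    · rintro ⟨i, rfl⟩; fin_cases i <;> simp
    · rintro (rfl | rfl | rfl | rfl) <;> exact ⟨_, rfl⟩
  have hl := hℓ.ne'
  rw [hr, image_insert_eq, image_insert_eq, image_insert_eq, image_singleton]
  congr 1
  · simp only [sim, hO, e]; simp; match_scalars <;> field_simp <;> ring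
  congr 1
  · rw [hw1]; simp only [sim, hO, e]; simp; match_scalars <;> field_simp <;> ring
  congr 1
  · rw [hw2]; simp only [sim, hO, e]; simp; match_scalars <;> field_simp <;> ring
  congr 1
  · rw [hw3]; simp only [sim, hO, e]; simp; match_scalars <;> field_simp <;> ring

theorem general_cover (w : Fin 4 → E3) {ℓ : ℝ} (hℓ : 0 < ℓ)
    (hw : ∀ i j, i ≠ j → dist (w i) (w j) = ℓ) :
    ∃ (k : ℕ) (T : Fin k → Tri) (m : ℝ), 0 < m ∧ (∀ i, (T i).good) ∧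
      convexHull ℝ (range w) ⊆ ⋃ i, (T i).cyl ∧ ∑ i, (T i).area < m / 2 ∧
      ∀ v : E3, ‖v‖ = 1 → m ≤ (μHE[2] (proj v '' convexHull ℝ (range w))).toReal := by
  obtain ⟨c, O, hK⟩ := exists_sim w hℓ hw
  obtain ⟨k, T', hT', hc', hA'⟩ := K0_cover'
  have hs : 0 < ℓ / 2 := by positivity
  have h2 := sqrt_two_pos
  refine ⟨_, fun i => (T' i).map c (ℓ / 2) O, (ℓ / 2) ^ 2 * √2, by positivity,
    fun i => mkTri_good _ _ _ ((hT' i).map_ne O), ?_, ?_, fun v hv => ?_⟩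
  · rw [hK]
    rintro _ ⟨x, hx, rfl⟩
    obtain ⟨i, hi⟩ := mem_iUnion.mp (hc' hx)
    exact mem_iUnion.mpr ⟨i, Tri.map_cyl (hT' i) c _ O (mem_image_of_mem _ hi)⟩
  · simp only [fun i => Tri.map_area (hT' i) c (s := ℓ / 2) O, ← Finset.mul_sum, hA']
    have : 0 < (ℓ / 2) ^ 2 * √2 := by positivity
    nlinarith
  · rw [hK, proj_sim, area_sim _ hs]
    exact mul_le_mul_of_nonneg_left (K0_proj_ge (by simpa using hv)) (by positivity)

lemma final_bounds {ι : Type} [Fintype ι] {K : Set E3} {m : ℝ} (hm : 0 < m) (A : ι → ℝ)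
    (hA0 : ∀ i, 0 ≤ A i) (hA : ∑ i, A i < m / 2) (u : ι → E3) (hu : ∀ i, ‖u i‖ = 1)
    (hK : ∀ v : E3, ‖v‖ = 1 → m ≤ (μHE[2] (proj v '' K)).toReal) :
    (∃ δ : ℝ, 0 < δ ∧ ∀ v : E3, ‖v‖ = 1 →
        (∑ i, A i) + δ ≤ (μHE[2] ((fun y => y - inner ℝ y v • v) '' K)).toReal / 2) ∧
      ∑ i, A i / (μHE[2] ((fun y => y - inner ℝ y (u i) • u i) '' K)).toReal < 1 / 2 := by
  refine ⟨⟨m / 2 - ∑ i, A i, by linarith, fun v hv => ?_⟩, ?_⟩
  · rw [proj_fun hv]; linarith [hK v hv]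
  · calc _ ≤ ∑ i, A i / m := Finset.sum_le_sum fun i _ => by
          rw [proj_fun (hu i)]
          exact div_le_div_of_nonneg_left (hA0 i) hm (hK _ (hu i))
      _ < 1 / 2 := by
          rw [← Finset.sum_div, div_lt_iff₀ hm]; linarith

theorem s0327_open (w : Fin 4 → E3) {ℓ : ℝ} (hℓ : 0 < ℓ)
    (hw : ∀ i j, i ≠ j → dist (w i) (w j) = ℓ) :
    (∃ (k : ℕ) (u : Fin k → E3) (B : Fin k → Set E3),
      (∀ i, ‖u i‖ = 1) ∧
      (∀ i, Bornology.IsBounded (B i) ∧ ∃ O : Set E3, IsOpen O ∧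
        B i = O ∩ {x | inner ℝ x (u i) = 0}) ∧
      convexHull ℝ (Set.range w) ⊆ ⋃ i, {x : E3 | ∃ y ∈ B i, ∃ τ : ℝ, x = y + τ • u i} ∧
      (∃ δ : ℝ, 0 < δ ∧ ∀ v : E3, ‖v‖ = 1 →
        (∑ i, (μHE[2] (B i)).toReal) + δ ≤
          (μHE[2] ((fun y => y - inner ℝ y v • v) '' convexHull ℝ (Set.range w))).toReal / 2) ∧
      ∑ i, (μHE[2] (B i)).toReal /
          (μHE[2] ((fun y => y - inner ℝ y (u i) • u i) '' convexHull ℝ (Set.range w))).toReal
            < 1 / 2) := by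
  obtain ⟨k, T, m, hm, hT, hc, hA, hK⟩ := general_cover w hℓ hw
  set η := (m / 2 - ∑ i, (T i).area) / (k + 1) with hη
  have hη0 : 0 < η := div_pos (by linarith) (by positivity)
  have : ∀ i, ∃ B : Set E3, (Bornology.IsBounded B ∧ ∃ O : Set E3, IsOpen O ∧
      B = O ∩ {x | inner ℝ x (T i).u = 0}) ∧ convexHull ℝ {(T i).p, (T i).q, (T i).r} ⊆ B ∧
      (μHE[2] B).toReal ≤ (T i).area + η := by
    intro i
    obtain ⟨h0, h1, h2, h3⟩ := hT i
    rw [← Tri.area_eq]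
    refine exists_open_base (by rintro h; simp [h] at h0)
      ((Set.toFinite _).isCompact_convexHull ℝ) (fun x hx => ?_) hη0
    rw [convexHull_triangle] at hx
    obtain ⟨a, t, -, rfl⟩ := mem_plane.mp hx
    simp [inner_add_left, inner_smul_left, inner_sub_left, h1, h2, h3]
  choose B hB1 hB2 hB3 using this
  refine ⟨k, fun i => (T i).u, B, fun i => (hT i).1, hB1, ?_,
    final_bounds hm _ (fun i => ENNReal.toReal_nonneg) ?_ _ (fun i => (hT i).1) hK⟩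
  · refine hc.trans (iUnion_mono fun i => ?_)
    rintro x ⟨b, hb, t, rfl⟩
    exact ⟨b, hB2 i hb, t, rfl⟩
  · refine (Finset.sum_le_sum fun i _ => hB3 i).trans_lt ?_
    rw [Finset.sum_add_distrib]
    simp only [Finset.sum_const, Finset.card_univ, Fintype.card_fin, nsmul_eq_mul]
    have : (k + 1) * η = m / 2 - ∑ i, (T i).area := by rw [hη]; field_simp
    linarith

lemma sum_strips (n : ℕ) (hn : 0 < n) :
    ∑ j : Fin n, (1 - (j : ℝ) / n) * (1 / n) = (1 + 1 / n) / 2 := by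
  have h0 : (n : ℝ) ≠ 0 := by positivity
  rw [Fin.sum_univ_eq_sum_range (fun j => (1 - (j : ℝ) / n) * (1 / n)), ← Finset.sum_mul,
    Finset.sum_sub_distrib, ← Finset.sum_div]
  have : ∑ j ∈ Finset.range n, (j : ℝ) = n * (n - 1) / 2 := by
    clear h0 hn
    induction n with
    | zero => simp
    | succ n ih => rw [Finset.sum_range_succ, ih]; push_cast; ring
  rw [this]
  simp only [Finset.sum_const, Finset.card_range, nsmul_eq_mul]
  field_simp
  ring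

lemma strip_mem {n : ℕ} (hn : 0 < n) {s t : ℝ} (h : (s, t) ∈ stdTri) :
    ∃ j : Fin n, ∃ s' ∈ Icc (0 : ℝ) 1, ∃ t' ∈ Icc (0 : ℝ) 1,
      s = s' * (1 - (j : ℝ) / n) ∧ t = (j : ℝ) / n + t' * (1 / n) := by
  obtain ⟨h1, h2, h3⟩ := h
  simp only at h1 h2 h3
  have h0 : (0 : ℝ) < n := by positivity
  obtain ⟨j, hj, hj1, hj2⟩ : ∃ j : ℕ, j < n ∧ (j : ℝ) ≤ t * n ∧ t * n ≤ j + 1 := by
    by_cases ht : t * n < n
    · exact ⟨⌊t * n⌋₊, (Nat.floor_lt (by positivity)).mpr ht, Nat.floor_le (by positivity),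
        (Nat.lt_floor_add_one _).le⟩
    · refine ⟨n - 1, by omega, ?_, ?_⟩
      · rw [Nat.cast_pred hn]; linarith
      · rw [Nat.cast_pred hn]; nlinarith
  have hj' : (j : ℝ) < n := by exact_mod_cast hj
  have h4 : 0 < 1 - (j : ℝ) / n := by rw [sub_pos, div_lt_one h0]; exact hj'
  have h5 : (j : ℝ) / n ≤ t := by rw [div_le_iff₀ h0]; exact hj1
  refine ⟨⟨j, hj⟩, s / (1 - j / n), ⟨by positivity, by rw [div_le_one h4]; linarith⟩,
    t * n - j, ⟨by linarith, by linarith⟩, (div_mul_cancel₀ _ h4.ne').symm,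
    by simp only; field_simp; ring⟩

theorem s0327_par (w : Fin 4 → E3) {ℓ : ℝ} (hℓ : 0 < ℓ)
    (hw : ∀ i j, i ≠ j → dist (w i) (w j) = ℓ) :
    (∃ (k : ℕ) (u c a b : Fin k → E3),
      (∀ i, ‖u i‖ = 1) ∧
      (∀ i, inner ℝ (c i) (u i) = 0 ∧ inner ℝ (a i) (u i) = 0 ∧ inner ℝ (b i) (u i) = 0) ∧
      convexHull ℝ (Set.range w) ⊆ ⋃ i, {x : E3 |
        ∃ s ∈ Set.Icc (0 : ℝ) 1, ∃ t ∈ Set.Icc (0 : ℝ) 1, ∃ τ : ℝ,
          x = c i + s • a i + t • b i + τ • u i} ∧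
      (∃ δ : ℝ, 0 < δ ∧ ∀ v : E3, ‖v‖ = 1 →
        (∑ i, (μHE[2] {x : E3 | ∃ s ∈ Set.Icc (0 : ℝ) 1, ∃ t ∈ Set.Icc (0 : ℝ) 1,
          x = c i + s • a i + t • b i}).toReal) + δ ≤
          (μHE[2] ((fun y => y - inner ℝ y v • v) '' convexHull ℝ (Set.range w))).toReal / 2) ∧
      ∑ i, (μHE[2] {x : E3 | ∃ s ∈ Set.Icc (0 : ℝ) 1, ∃ t ∈ Set.Icc (0 : ℝ) 1,
          x = c i + s • a i + t • b i}).toReal /
          (μHE[2] ((fun y => y - inner ℝ y (u i) • u i) '' convexHull ℝ (Set.range w))).toReal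
            < 1 / 2) := by
  obtain ⟨k, T, m, hm, hT, hc, hA, hK⟩ := general_cover w hℓ hw
  set A := ∑ i, (T i).area with hAdef
  obtain ⟨n, hn⟩ := exists_nat_gt (A / (m / 2 - A))
  have hA0 : 0 ≤ A := Finset.sum_nonneg fun i _ => (T i).area_nonneg
  have hn0 : (0 : ℝ) < n := lt_of_le_of_lt (div_nonneg hA0 (by linarith)) hn
  have hn1 : 0 < n := by exact_mod_cast hn0
  let e : Fin (k * n) ≃ Fin k × Fin n := finProdFinEquiv.symm
  refine ⟨k * n, fun i => (T (e i).1).u,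
    fun i => (T (e i).1).p + (((e i).2 : ℝ) / n) • ((T (e i).1).r - (T (e i).1).p),
    fun i => (1 - ((e i).2 : ℝ) / n) • ((T (e i).1).q - (T (e i).1).p),
    fun i => (1 / n : ℝ) • ((T (e i).1).r - (T (e i).1).p), fun i => (hT _).1, fun i => ?_, ?_,
    final_bounds hm _ (fun i => ENNReal.toReal_nonneg) ?_ _ (fun i => (hT _).1) hK⟩
  · obtain ⟨h0, h1, h2, h3⟩ := hT (e i).1
    simp [inner_add_left, inner_smul_left, inner_sub_left, h1, h2, h3]
  · intro x hx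
    obtain ⟨i, b, hb, τ, rfl⟩ := mem_iUnion.mp (hc hx)
    rw [convexHull_triangle] at hb
    obtain ⟨s, t, hst, rfl⟩ := mem_plane.mp hb
    obtain ⟨j, s', hs', t', ht', rfl, rfl⟩ := strip_mem hn1 hst
    refine mem_iUnion.mpr ⟨e.symm (i, j), s', hs', t', ht', τ, ?_⟩
    simp only [Equiv.apply_symm_apply]
    module
  · simp only [parallelogram_eq, area_plane_toReal, volume_unitSq, gram_smul, ENNReal.toReal_one,
      mul_one]
    rw [Equiv.sum_comp e (fun z : Fin k × Fin n => |(1 - (z.2 : ℝ) / n) * (1 / n)| *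
      gram ((T z.1).q - (T z.1).p) ((T z.1).r - (T z.1).p)), Fintype.sum_prod_type]
    have h1 : ∀ j : Fin n, |(1 - (j : ℝ) / n) * (1 / n)| = (1 - (j : ℝ) / n) * (1 / n) := by
      intro j
      have : (j : ℝ) < n := by exact_mod_cast j.2
      have : (j : ℝ) / n < 1 := by rwa [div_lt_one hn0]
      exact abs_of_nonneg (mul_nonneg (by linarith) (by positivity))
    simp only [h1, ← Finset.sum_mul, sum_strips n hn1]
    have h2 : ∑ i, (1 + 1 / (n : ℝ)) / 2 * gram ((T i).q - (T i).p) ((T i).r - (T i).p)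
        = (1 + 1 / n) * A := by
      rw [hAdef, Finset.mul_sum]
      refine Finset.sum_congr rfl fun i _ => ?_
      simp only [Tri.area]; ring
    rw [h2]
    rw [div_lt_iff₀ (by linarith)] at hn
    have : A / n < m / 2 - A := by rw [div_lt_iff₀ hn0]; linarith
    have e2 : (1 + 1 / (n : ℝ)) * A = A + A / n := by ring
    linarith

end Crest.Agent.R211
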